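import Crest.Agent.R130.Transport
import Crest.Prelude.Def_MultiMarginal

/-!
The measure-theoretic core: a dual potential with a three-branch contact set gives an optimal
coupling, no optimal Monge plan, and almost optimal Monge plans.
-/

set_option autoImplicit false

open MeasureTheory ProbabilityTheory Set Filter Topology
open scoped ENNReal
open Crest.AnalysisR.OT

namespace Crest.Agent.R130

/-- The uniform probability on three points. -/
noncomputable def u3 : Measure (Fin 3) := (3 : ℝ≥0∞)⁻¹ • Measure.count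

instance : IsProbabilityMeasure u3 := ⟨by
  simp only [u3, Measure.smul_apply, Measure.count_univ, smul_eq_mul]
  simp only [ENat.card_eq_coe_fintype_card, Fintype.card_fin]
  exact ENNReal.inv_mul_cancel (by norm_num) (by norm_num)⟩

theorem u3_singleton (i : Fin 3) : u3 {i} = (3 : ℝ≥0∞)⁻¹ := by
  simp [u3]

/-- Left inverse of an injective measurable map. -/
theorem exists_left_inv {W E : Type*} [MeasurableSpace W] [StandardBorelSpace W] [Nonempty W]
    [MeasurableSpace E] [StandardBorelSpace E] (P : W → E) (hP : Measurable P)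
    (hi : Function.Injective P) :
    MeasurableSet (range P) ∧ ∃ σ : E → W, Measurable σ ∧ ∀ w, σ (P w) = w := by
  have he : MeasurableEmbedding P := hP.measurableEmbedding hi
  refine ⟨he.measurableSet_range, ?_⟩
  obtain ⟨g, hg, hgP⟩ := he.exists_measurable_extend (g := id) measurable_id
    (fun _ => inferInstance)
  exact ⟨g, hg, fun w => congrFun hgP w⟩

/-- Gluing three functions given on three disjoint images. -/
theorem exists_glue {Z W E Y : Type*} [MeasurableSpace Z] [StandardBorelSpace Z] [Nonempty Z]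
    [MeasurableSpace W] [StandardBorelSpace W] [Nonempty W]
    [MeasurableSpace E] [StandardBorelSpace E] [MeasurableSpace Y]
    (J : Z → E) (P Q : W → E) (hJ : Measurable J) (hP : Measurable P) (hQ : Measurable Q)
    (iJ : Function.Injective J) (iP : Function.Injective P) (iQ : Function.Injective Q)
    (dJP : ∀ a w, J a ≠ P w) (dJQ : ∀ a w, J a ≠ Q w) (dPQ : ∀ w w', P w ≠ Q w')
    (f₀ : Z → Y) (f₁ f₂ : W → Y) (h₀ : Measurable f₀) (h₁ : Measurable f₁) (h₂ : Measurable f₂) :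
    ∃ f : E → Y, Measurable f ∧ (∀ a, f (J a) = f₀ a) ∧ (∀ w, f (P w) = f₁ w) ∧
      (∀ w, f (Q w) = f₂ w) ∧ ∀ x, (∃ a, f x = f₀ a) ∨ (∃ w, f x = f₁ w) ∨ (∃ w, f x = f₂ w) := by
  classical
  obtain ⟨mJ, σ₀, m₀, e₀⟩ := exists_left_inv J hJ iJ
  obtain ⟨mP, σ₁, m₁, e₁⟩ := exists_left_inv P hP iP
  obtain ⟨mQ, σ₂, m₂, e₂⟩ := exists_left_inv Q hQ iQ
  refine ⟨fun x => if x ∈ range J then f₀ (σ₀ x) else if x ∈ range P then f₁ (σ₁ x) else f₂ (σ₂ x),
    Measurable.ite mJ (h₀.comp m₀) (Measurable.ite mP (h₁.comp m₁) (h₂.comp m₂)), ?_, ?_, ?_, ?_⟩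
  · intro a
    simp [e₀]
  · intro w
    have : P w ∉ range J := by
      rintro ⟨a, ha⟩
      exact dJP a w ha
    simp only [this, if_false, mem_range_self, if_true, e₁]
  · intro w
    have h1 : Q w ∉ range J := by
      rintro ⟨a, ha⟩
      exact dJQ a w ha
    have h2 : Q w ∉ range P := by
      rintro ⟨a, ha⟩
      exact dPQ a w ha
    simp only [h1, h2, if_false, e₂]
  · intro x
    by_cases h1 : x ∈ range J
    · exact Or.inl ⟨_, by simp only [h1, if_true]; rfl⟩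
    · by_cases h2 : x ∈ range P
      · exact Or.inr (Or.inl ⟨_, by simp only [h1, h2, if_true, if_false]; rfl⟩)
      · exact Or.inr (Or.inr ⟨_, by simp only [h1, h2, if_false]; rfl⟩)

theorem dual_bound {E : Type*} [MeasurableSpace E] (μ : Measure E) (φ : E → ℝ≥0∞)
    (hφ : Measurable φ) (π : Measure (E × E × E)) (hπ : IsCoupling₃ μ π) :
    ∫⁻ p, φ p.1 + φ p.2.1 + φ p.2.2 ∂π = 3 * ∫⁻ x, φ x ∂μ := by
  obtain ⟨h1, h2, h3⟩ := hπ
  rw [lintegral_add_left (by fun_prop), lintegral_add_left (by fun_prop)]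
  have e1 : ∫⁻ p, φ p.1 ∂π = ∫⁻ x, φ x ∂μ := by
    rw [← h1, lintegral_map hφ (by fun_prop)]
  have e2 : ∫⁻ p, φ p.2.1 ∂π = ∫⁻ x, φ x ∂μ := by
    rw [← h2, lintegral_map hφ (by fun_prop)]
  have e3 : ∫⁻ p, φ p.2.2 ∂π = ∫⁻ x, φ x ∂μ := by
    rw [← h3, lintegral_map hφ (by fun_prop)]
  rw [e1, e2, e3]
  ring

theorem coupling_ae_mem {E : Type*} [MeasurableSpace E] (μ : Measure E) (X : Set E)
    (hX : ∀ᵐ x ∂μ, x ∈ X) (π : Measure (E × E × E)) (hπ : IsCoupling₃ μ π) :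
    ∀ᵐ p ∂π, p.1 ∈ X ∧ p.2.1 ∈ X ∧ p.2.2 ∈ X := by
  obtain ⟨h1, h2, h3⟩ := hπ
  have e1 : ∀ᵐ p ∂π, p.1 ∈ X :=
    ae_of_ae_map (f := fun p : E × E × E => p.1) (by fun_prop) (h1 ▸ hX)
  have e2 : ∀ᵐ p ∂π, p.2.1 ∈ X :=
    ae_of_ae_map (f := fun p : E × E × E => p.2.1) (by fun_prop) (h2 ▸ hX)
  have e3 : ∀ᵐ p ∂π, p.2.2 ∈ X :=
    ae_of_ae_map (f := fun p : E × E × E => p.2.2) (by fun_prop) (h3 ▸ hX)
  filter_upwards [e1, e2, e3] with p a b c using ⟨a, b, c⟩

theorem monge_coupling {E : Type*} [MeasurableSpace E] (μ : Measure E) (T₂ T₃ : E → E)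
    (h₂ : Measurable T₂) (h₃ : Measurable T₃) (e₂ : μ.map T₂ = μ) (e₃ : μ.map T₃ = μ) :
    IsCoupling₃ μ (μ.map fun x => (x, T₂ x, T₃ x)) := by
  have hm : Measurable fun x => (x, T₂ x, T₃ x) := by fun_prop
  refine ⟨?_, ?_, ?_⟩
  · rw [Measure.map_map (by fun_prop) hm]
    exact Measure.map_id
  · rw [Measure.map_map (by fun_prop) hm]
    exact e₂
  · rw [Measure.map_map (by fun_prop) hm]
    exact e₃

theorem abstract_main {Z E : Type*} [PseudoMetricSpace Z] [TopologicalSpace.SeparableSpace Z]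
    [MeasurableSpace Z] [OpensMeasurableSpace Z] [StandardBorelSpace Z] [Nonempty Z]
    [MeasurableSpace E] [StandardBorelSpace E]
    (c : E × E × E → ℝ≥0∞) (hc : Measurable c) (hcyc : ∀ x y z, c (y, z, x) = c (x, y, z))
    (ν : Measure Z) [IsFiniteMeasure ν] (hν0 : ν ≠ 0)
    (l : Z → ℝ) (hl : Measurable l) (hl0 : ∀ t, ν (l ⁻¹' {t}) = 0)
    (J : Z → E) (P Q : Z × Fin 3 → E) (hJ : Measurable J) (hP : Measurable P) (hQ : Measurable Q)
    (iJ : Function.Injective J) (iP : Function.Injective P) (iQ : Function.Injective Q)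
    (dJP : ∀ a w, J a ≠ P w) (dJQ : ∀ a w, J a ≠ Q w) (dPQ : ∀ w w', P w ≠ Q w')
    (φ : E → ℝ≥0∞) (hφ : Measurable φ) (M : ℝ≥0∞) (hM : M ≠ ⊤) (hφM : ∀ x, φ x ≤ M)
    (X : Set E) (hX : X = range J ∪ range P ∪ range Q)
    (hle : ∀ x ∈ X, ∀ y ∈ X, ∀ z ∈ X, φ x + φ y + φ z ≤ c (x, y, z))
    (heq : ∀ w, c (J w.1, P w, Q w) = φ (J w.1) + φ (P w) + φ (Q w))
    (hrig : ∀ a, ∀ y ∈ X, ∀ z ∈ X, c (J a, y, z) ≤ φ (J a) + φ y + φ z →
      ∃ i, y = P (a, i) ∨ z = P (a, i))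
    (hcont : ∀ ε : ℝ≥0∞, 0 < ε → ∃ δ : ℝ, 0 < δ ∧ ∀ a w, dist a w.1 ≤ δ →
      c (J a, P w, Q w) ≤ c (J w.1, P w, Q w) + ε)
    (μ : Measure E) (hμ : μ = ν.map J + (ν.prod u3).map P + (ν.prod u3).map Q) :
    ∃ π₀ : Measure (E × E × E), IsCoupling₃ μ π₀ ∧ ∫⁻ p, c p ∂π₀ < ⊤ ∧
      (∀ π : Measure (E × E × E), IsCoupling₃ μ π → ∫⁻ p, c p ∂π₀ ≤ ∫⁻ p, c p ∂π) ∧
      (∀ T₂ T₃ : E → E, Measurable T₂ → Measurable T₃ → μ.map T₂ = μ → μ.map T₃ = μ →
        ∫⁻ p, c p ∂π₀ < ∫⁻ x, c (x, T₂ x, T₃ x) ∂μ) ∧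
      (∀ ε : ℝ≥0∞, 0 < ε → ∃ T₂ T₃ : E → E, Measurable T₂ ∧ Measurable T₃ ∧
        μ.map T₂ = μ ∧ μ.map T₃ = μ ∧
        ∫⁻ x, c (x, T₂ x, T₃ x) ∂μ < ∫⁻ p, c p ∂π₀ + ε) := by
  classical
  set κ : Measure (Z × Fin 3) := ν.prod u3 with hκ
  have hκ1 : κ.map Prod.fst = ν := by
    rw [hκ, Measure.map_fst_prod]; simp
  have hJ1 : Measurable fun w : Z × Fin 3 => J w.1 := by fun_prop
  have hκJ : κ.map (fun w => J w.1) = ν.map J := by
    rw [← hκ1, Measure.map_map hJ measurable_fst]; rfl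
  have mJ := (exists_left_inv J hJ iJ).1
  have mP := (exists_left_inv P hP iP).1
  have mQ := (exists_left_inv Q hQ iQ).1
  have mX : MeasurableSet X := hX ▸ (mJ.union mP).union mQ
  have hμX : ∀ᵐ x ∂μ, x ∈ X := by
    rw [hμ, ae_add_measure_iff, ae_add_measure_iff]
    refine ⟨⟨?_, ?_⟩, ?_⟩
    · rw [ae_map_iff (p := fun x => x ∈ X) hJ.aemeasurable mX]
      exact Eventually.of_forall fun a => by rw [hX]; exact Or.inl (Or.inl ⟨a, rfl⟩)
    · rw [ae_map_iff (p := fun x => x ∈ X) hP.aemeasurable mX]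
      exact Eventually.of_forall fun a => by rw [hX]; exact Or.inl (Or.inr ⟨a, rfl⟩)
    · rw [ae_map_iff (p := fun x => x ∈ X) hQ.aemeasurable mX]
      exact Eventually.of_forall fun a => by rw [hX]; exact Or.inr ⟨a, rfl⟩
  have : IsFiniteMeasure μ := by rw [hμ]; infer_instance
  -- the optimal plan
  have m1 : Measurable fun w : Z × Fin 3 => (J w.1, P w, Q w) := by fun_prop
  have m2 : Measurable fun w : Z × Fin 3 => (P w, Q w, J w.1) := by fun_prop
  have m3 : Measurable fun w : Z × Fin 3 => (Q w, J w.1, P w) := by fun_prop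
  set π₀ : Measure (E × E × E) := κ.map (fun w => (J w.1, P w, Q w)) +
    κ.map (fun w => (P w, Q w, J w.1)) + κ.map (fun w => (Q w, J w.1, P w)) with hπ₀
  have hcoup : IsCoupling₃ μ π₀ := by
    refine ⟨?_, ?_, ?_⟩
    · rw [hπ₀, Measure.map_add _ _ (by fun_prop), Measure.map_add _ _ (by fun_prop),
        Measure.map_map (by fun_prop) m1, Measure.map_map (by fun_prop) m2,
        Measure.map_map (by fun_prop) m3, hμ, ← hκJ]
      rfl
    · rw [hπ₀, Measure.map_add _ _ (by fun_prop), Measure.map_add _ _ (by fun_prop),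
        Measure.map_map (by fun_prop) m1, Measure.map_map (by fun_prop) m2,
        Measure.map_map (by fun_prop) m3, hμ, ← hκJ, add_assoc (κ.map fun w => J w.1),
        add_comm (κ.map fun w => J w.1)]
      rfl
    · rw [hπ₀, Measure.map_add _ _ (by fun_prop), Measure.map_add _ _ (by fun_prop),
        Measure.map_map (by fun_prop) m1, Measure.map_map (by fun_prop) m2,
        Measure.map_map (by fun_prop) m3, hμ, ← hκJ, add_comm _ (κ.map Q), ← add_assoc]
      rfl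
  set V : ℝ≥0∞ := ∫⁻ w, c (J w.1, P w, Q w) ∂κ with hV
  have hcost : ∫⁻ p, c p ∂π₀ = 3 * V := by
    rw [hπ₀, lintegral_add_measure, lintegral_add_measure, lintegral_map hc m1,
      lintegral_map hc m2, lintegral_map hc m3]
    have e2 : ∀ w : Z × Fin 3, c (P w, Q w, J w.1) = c (J w.1, P w, Q w) := fun w => hcyc _ _ _
    have e3 : ∀ w : Z × Fin 3, c (Q w, J w.1, P w) = c (J w.1, P w, Q w) := fun w =>
      (hcyc _ _ _).symm
    simp only [e2, e3, ← hV]
    ring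
  have hVφ : V = ∫⁻ x, φ x ∂μ := by
    rw [hμ, lintegral_add_measure, lintegral_add_measure, ← hκJ, lintegral_map hφ hJ1,
      lintegral_map hφ hP, lintegral_map hφ hQ, ← lintegral_add_left (by fun_prop),
      ← lintegral_add_left (by fun_prop)]
    simp only [hV, heq]
  have hVtop : V ≠ ⊤ := by
    rw [hVφ]
    refine ne_top_of_le_ne_top ?_ (lintegral_mono hφM)
    rw [lintegral_const]
    exact ENNReal.mul_ne_top hM (measure_ne_top _ _)
  have h3V : 3 * V ≠ ⊤ := ENNReal.mul_ne_top (by norm_num) hVtop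
  have hdual : ∀ π : Measure (E × E × E), IsCoupling₃ μ π →
      (fun p => φ p.1 + φ p.2.1 + φ p.2.2) ≤ᵐ[π] c := fun π hπ => by
    filter_upwards [coupling_ae_mem μ X hμX π hπ] with p hp
    exact hle _ hp.1 _ hp.2.1 _ hp.2.2
  have hopt : ∀ π : Measure (E × E × E), IsCoupling₃ μ π → ∫⁻ p, c p ∂π₀ ≤ ∫⁻ p, c p ∂π := by
    intro π hπ
    rw [hcost, hVφ, ← dual_bound μ φ hφ π hπ]
    exact lintegral_mono_ae (hdual π hπ)
  refine ⟨π₀, hcoup, by rw [hcost]; exact h3V.lt_top, hopt, ?_, ?_⟩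
  · intro T₂ T₃ h₂ h₃ e₂ e₃
    have hm : Measurable fun x => (x, T₂ x, T₃ x) := by fun_prop
    have hπ := monge_coupling μ T₂ T₃ h₂ h₃ e₂ e₃
    rw [← lintegral_map hc hm]
    refine lt_of_le_of_ne (hopt _ hπ) fun hE => hν0 ?_
    have hd := dual_bound μ φ hφ _ hπ
    have hae := ae_eq_of_ae_le_of_lintegral_le (hdual _ hπ) (by rw [hd, ← hVφ]; exact h3V)
      hc.aemeasurable (by rw [hd, ← hVφ, ← hE, hcost])
    have h1 : ∀ᵐ x ∂μ, (c (x, T₂ x, T₃ x) ≤ φ x + φ (T₂ x) + φ (T₃ x)) ∧ T₂ x ∈ X ∧ T₃ x ∈ X := by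
      refine ae_of_ae_map (p := fun p : E × E × E =>
        (c p ≤ φ p.1 + φ p.2.1 + φ p.2.2) ∧ p.2.1 ∈ X ∧ p.2.2 ∈ X) hm.aemeasurable ?_
      filter_upwards [hae, coupling_ae_mem μ X hμX _ hπ] with p hp hq
      exact ⟨hp.ge, hq.2⟩
    have h2 : ∀ᵐ a ∂ν, ∃ i, T₂ (J a) = P (a, i) ∨ T₃ (J a) = P (a, i) := by
      rw [hμ, ae_add_measure_iff, ae_add_measure_iff] at h1
      filter_upwards [ae_of_ae_map hJ.aemeasurable h1.1.1] with a ha
      exact hrig a _ ha.2.1 _ ha.2.2 ha.1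
    have h3 : ∀ i, ν {a | T₂ (J a) = P (a, i) ∨ T₃ (J a) = P (a, i)} = 0 := by
      intro i
      set G := {a | T₂ (J a) = P (a, i) ∨ T₃ (J a) = P (a, i)} with hG
      have mG : MeasurableSet G :=
        (measurableSet_eq_fun (h₂.comp hJ) (by fun_prop)).union
          (measurableSet_eq_fun (h₃.comp hJ) (by fun_prop))
      have eP : MeasurableEmbedding P := hP.measurableEmbedding iP
      set F := P '' (G ×ˢ {i}) with hF
      have mF : MeasurableSet F :=
        eP.measurableSet_image.2 (mG.prod (measurableSet_singleton i))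
      have hμF : μ F = ν G * (3 : ℝ≥0∞)⁻¹ := by
        rw [hμ, Measure.add_apply, Measure.add_apply, Measure.map_apply hJ mF,
          Measure.map_apply hP mF, Measure.map_apply hQ mF]
        have a1 : J ⁻¹' F = ∅ := by
          ext a
          simp only [hF, mem_preimage, mem_image, mem_empty_iff_false, iff_false]
          rintro ⟨w, -, hw⟩
          exact dJP a w hw.symm
        have a2 : Q ⁻¹' F = ∅ := by
          ext a
          simp only [hF, mem_preimage, mem_image, mem_empty_iff_false, iff_false]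
          rintro ⟨w, -, hw⟩
          exact dPQ w a hw
        rw [a1, a2, hF, preimage_image_eq _ iP, hκ, Measure.prod_prod, u3_singleton]
        simp
      have hb : ν G ≤ μ (T₂ ⁻¹' F) + μ (T₃ ⁻¹' F) := by
        refine le_trans ?_ (measure_union_le _ _)
        have hm' : MeasurableSet (T₂ ⁻¹' F ∪ T₃ ⁻¹' F) := (h₂ mF).union (h₃ mF)
        calc ν G ≤ ν (J ⁻¹' (T₂ ⁻¹' F ∪ T₃ ⁻¹' F)) := by
              refine measure_mono fun a ha => ?_
              rcases ha with h | h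
              · exact Or.inl ⟨(a, i), ⟨Or.inl h, rfl⟩, h.symm⟩
              · exact Or.inr ⟨(a, i), ⟨Or.inr h, rfl⟩, h.symm⟩
          _ = ν.map J (T₂ ⁻¹' F ∪ T₃ ⁻¹' F) := (Measure.map_apply hJ hm').symm
          _ ≤ μ (T₂ ⁻¹' F ∪ T₃ ⁻¹' F) := by
              rw [hμ, Measure.add_apply, Measure.add_apply, add_assoc]
              exact le_self_add
      rw [← Measure.map_apply h₂ mF, ← Measure.map_apply h₃ mF, e₂, e₃, hμF] at hb
      have hfin : ν G ≠ ⊤ := measure_ne_top _ _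
      lift ν G to NNReal using hfin with g hg
      have h3' : (3 : ℝ≥0∞)⁻¹ = ((3⁻¹ : NNReal) : ℝ≥0∞) := by simp
      rw [h3'] at hb
      have hb' : (g : ℝ) ≤ g * 3⁻¹ + g * 3⁻¹ := by exact_mod_cast hb
      have : (g : ℝ) = 0 := le_antisymm (by linarith) g.2
      exact_mod_cast this
    have h4 : ∀ᵐ a ∂ν, ∀ i, ¬ (T₂ (J a) = P (a, i) ∨ T₃ (J a) = P (a, i)) := by
      rw [ae_all_iff]
      intro i
      exact measure_eq_zero_iff_ae_notMem.1 (h3 i)
    have h5 : ∀ᵐ a ∂ν, False := by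
      filter_upwards [h2, h4] with a ⟨i, hi⟩ h using h i hi
    simpa [ae_iff] using h5
  · intro ε hε
    have hfin : ν univ ≠ ⊤ := measure_ne_top _ _
    obtain ⟨ε', hε', hε'ε⟩ : ∃ ε' : ℝ≥0∞, 0 < ε' ∧ ε' * ν univ < ε := by
      obtain ⟨e, he, he'⟩ := ENNReal.exists_nnreal_pos_mul_lt hfin hε.ne'
      exact ⟨e, by exact_mod_cast he, he'⟩
    obtain ⟨δ, hδ, hδc⟩ := hcont ε' hε'
    obtain ⟨τ, hτ, hτν, hτd⟩ := exists_local_map ν u3 l hl hl0 δ hδ
    obtain ⟨T₂, h₂, a₂, b₂, c₂, -⟩ := exists_glue J P Q hJ hP hQ iJ iP iQ dJP dJQ dPQ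
      (fun a => P (τ a)) Q (fun w => J w.1) (by fun_prop) hQ hJ1
    obtain ⟨T₃, h₃, a₃, b₃, c₃, -⟩ := exists_glue J P Q hJ hP hQ iJ iP iQ dJP dJQ dPQ
      (fun a => Q (τ a)) (fun w => J w.1) P (by fun_prop) hJ1 hP
    refine ⟨T₂, T₃, h₂, h₃, ?_, ?_, ?_⟩
    · conv_lhs => rw [hμ]
      rw [Measure.map_add _ _ h₂, Measure.map_add _ _ h₂, Measure.map_map h₂ hJ,
        Measure.map_map h₂ hP, Measure.map_map h₂ hQ]
      have k1 : T₂ ∘ J = P ∘ τ := funext a₂
      have k2 : T₂ ∘ P = Q := funext b₂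
      have k3 : T₂ ∘ Q = fun w => J w.1 := funext c₂
      rw [k1, k2, k3, ← Measure.map_map hP hτ, hτν, hκJ, hμ, add_comm _ (ν.map J), add_assoc]
    · conv_lhs => rw [hμ]
      rw [Measure.map_add _ _ h₃, Measure.map_add _ _ h₃, Measure.map_map h₃ hJ,
        Measure.map_map h₃ hP, Measure.map_map h₃ hQ]
      have k1 : T₃ ∘ J = Q ∘ τ := funext a₃
      have k2 : T₃ ∘ P = fun w => J w.1 := funext b₃
      have k3 : T₃ ∘ Q = P := funext c₃
      rw [k1, k2, k3, ← Measure.map_map hQ hτ, hτν, hκJ, hμ, add_assoc, add_comm (κ.map Q)]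
    · have hm : Measurable fun x => c (x, T₂ x, T₃ x) := by fun_prop
      rw [hcost, hμ, lintegral_add_measure, lintegral_add_measure, lintegral_map hm hJ,
        lintegral_map hm hP, lintegral_map hm hQ]
      simp only [a₂, a₃, b₂, b₃, c₂, c₃]
      have e2 : ∀ w : Z × Fin 3, c (P w, Q w, J w.1) = c (J w.1, P w, Q w) := fun w => hcyc _ _ _
      have e3 : ∀ w : Z × Fin 3, c (Q w, J w.1, P w) = c (J w.1, P w, Q w) := fun w =>
        (hcyc _ _ _).symm
      simp only [e2, e3, ← hV]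
      have hb : ∫⁻ a, c (J a, P (τ a), Q (τ a)) ∂ν ≤ V + ε' * ν univ := by
        calc ∫⁻ a, c (J a, P (τ a), Q (τ a)) ∂ν
            ≤ ∫⁻ a, c (J (τ a).1, P (τ a), Q (τ a)) + ε' ∂ν := by
              refine lintegral_mono_ae ?_
              filter_upwards [hτd] with a ha using hδc a (τ a) ha
          _ = V + ε' * ν univ := by
              rw [lintegral_add_right _ measurable_const, lintegral_const, hV, hκ, ← hτν,
                lintegral_map (f := fun w => c (J w.1, P w, Q w)) (hc.comp m1) hτ]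
      calc ∫⁻ a, c (J a, P (τ a), Q (τ a)) ∂ν + V + V ≤ V + ε' * ν univ + V + V := by gcongr
        _ = 3 * V + ε' * ν univ := by ring
        _ < 3 * V + ε := ENNReal.add_lt_add_left h3V hε'ε

end Crest.Agent.R130
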