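import Mathlib

/-!
Push-forward of a density with a smooth square root by a local diffeomorphism.
-/

set_option autoImplicit false

open MeasureTheory Set Filter Topology
open scoped ENNReal ContDiff

namespace Crest.Agent.R130

variable {E : Type*} [NormedAddCommGroup E] [NormedSpace ℝ E] [FiniteDimensional ℝ E]

theorem contDiff_det {n : WithTop ℕ∞} : ContDiff ℝ n fun f : E →L[ℝ] E => f.det := by
  classical
  let b := Module.finBasis ℝ E
  have : (fun f : E →L[ℝ] E => f.det) = fun f : E →L[ℝ] E =>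
      ∑ σ : Equiv.Perm (Fin (Module.finrank ℝ E)), ((Equiv.Perm.sign σ : ℤ) : ℝ) *
        ∏ i, b.repr (f (b i)) (σ i) := by
    ext f
    rw [ContinuousLinearMap.det, ← LinearMap.det_toMatrix b, Matrix.det_apply']
    simp [LinearMap.toMatrix_apply]
  rw [this]
  refine ContDiff.sum fun σ _ => contDiff_const.mul (contDiff_prod fun i _ => ?_)
  have h1 : ContDiff ℝ n fun f : E →L[ℝ] E => f (b i) :=
    (ContinuousLinearMap.apply ℝ E (b i)).contDiff
  exact ((b.coord (σ i)).toContinuousLinearMap.contDiff).comp h1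

theorem det_fderiv_symm_ne_zero (S : OpenPartialHomeomorph E E)
    (hS : ContDiffOn ℝ ∞ S S.source) (hS' : ContDiffOn ℝ ∞ S.symm S.target) {y : E}
    (hy : y ∈ S.target) : (fderiv ℝ S.symm y).det ≠ 0 := by
  have h1 : DifferentiableAt ℝ S.symm y :=
    (hS'.contDiffAt (S.open_target.mem_nhds hy)).differentiableAt (by simp)
  have h2 : DifferentiableAt ℝ S (S.symm y) :=
    (hS.contDiffAt (S.open_source.mem_nhds (S.map_target hy))).differentiableAt (by simp)
  have h3 : (S ∘ S.symm) =ᶠ[𝓝 y] id := by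
    filter_upwards [S.open_target.mem_nhds hy] with z hz using S.right_inv hz
  have h4 : (fderiv ℝ S (S.symm y)).comp (fderiv ℝ S.symm y) = ContinuousLinearMap.id ℝ E := by
    rw [← fderiv_comp y h2 h1, h3.fderiv_eq, fderiv_id]
  have h5 : (fderiv ℝ S (S.symm y)).det * (fderiv ℝ S.symm y).det = 1 := by
    have := congrArg ContinuousLinearMap.det h4
    have e : LinearMap.det (((fderiv ℝ S (S.symm y)).comp (fderiv ℝ S.symm y) : E →L[ℝ] E) :
        E →ₗ[ℝ] E) = (fderiv ℝ S (S.symm y)).det * (fderiv ℝ S.symm y).det :=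
      LinearMap.det_comp (fderiv ℝ S (S.symm y) : E →ₗ[ℝ] E) (fderiv ℝ S.symm y : E →ₗ[ℝ] E)
    rw [ContinuousLinearMap.det, e] at this
    rw [this]
    exact LinearMap.det_id
  exact right_ne_zero_of_mul_eq_one h5

theorem exists_push_density [MeasurableSpace E] [BorelSpace E] (m : Measure E)
    [m.IsAddHaarMeasure] (S : OpenPartialHomeomorph E E)
    (hS : ContDiffOn ℝ ∞ S S.source) (hS' : ContDiffOn ℝ ∞ S.symm S.target)
    (A : Set E) (hA : IsCompact A) (hAS : A ⊆ S.source)
    (ψ : E → ℝ) (hψ : ContDiff ℝ ∞ ψ) (hψ0 : ∀ x, 0 ≤ ψ x) (hψA : ∀ x, x ∉ A → ψ x = 0) :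
    ∃ ψ' : E → ℝ, ContDiff ℝ ∞ ψ' ∧ (∀ x, 0 ≤ ψ' x) ∧ (∀ x, x ∉ S '' A → ψ' x = 0) ∧
      ((m.withDensity fun x => ENNReal.ofReal (ψ x ^ 2)).comap (Subtype.val : A → E)).map
        (fun z : A => S z) = m.withDensity fun x => ENNReal.ofReal (ψ' x ^ 2) := by
  classical
  let g : E → ℝ := fun y => ψ (S.symm y) * Real.sqrt |(fderiv ℝ S.symm y).det|
  have hK : IsCompact (S '' A) := hA.image_of_continuousOn (S.continuousOn.mono hAS)
  have hzero : ∀ x, x ∉ S '' A → S.target.indicator g x = 0 := by
    intro x hx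
    by_cases hxt : x ∈ S.target
    · rw [indicator_of_mem hxt]
      have : S.symm x ∉ A := fun h => hx ⟨_, h, S.right_inv hxt⟩
      simp [g, hψA _ this]
    · exact indicator_of_notMem hxt _
  refine ⟨S.target.indicator g, ?_, ?_, hzero, ?_⟩
  · rw [contDiff_iff_contDiffAt]
    intro y
    by_cases hy : y ∈ S.target
    · have hn := S.open_target.mem_nhds hy
      have h1 : ContDiffAt ℝ ∞ S.symm y := hS'.contDiffAt hn
      have h2 : ContDiffAt ℝ ∞ (fun y => (fderiv ℝ S.symm y).det) y :=
        contDiff_det.contDiffAt.comp y (h1.fderiv_right (m := ∞) (by simp))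
      have h3 := det_fderiv_symm_ne_zero S hS hS' hy
      have h4 : ContDiffAt ℝ ∞ g y :=
        (hψ.contDiffAt.comp y h1).mul ((h2.abs h3).sqrt (abs_ne_zero.2 h3))
      refine h4.congr_of_eventuallyEq ?_
      filter_upwards [hn] with z hz using indicator_of_mem hz _
    · have hyK : y ∉ S '' A := by
        rintro ⟨a, ha, rfl⟩
        exact hy (S.map_source (hAS ha))
      refine (contDiffAt_const (c := (0 : ℝ))).congr_of_eventuallyEq ?_
      filter_upwards [hK.isClosed.isOpen_compl.mem_nhds hyK] with z hz using hzero z hz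
  · intro x
    exact indicator_nonneg (fun y _ => mul_nonneg (hψ0 _) (Real.sqrt_nonneg _)) x
  · have mA : MeasurableSet A := hA.measurableSet
    have hSm : Measurable fun z : A => S z :=
      (continuousOn_iff_continuous_domRestrict.1 (S.continuousOn.mono hAS)).measurable
    ext U hU
    rw [Measure.map_apply hSm hU, (MeasurableEmbedding.subtype_coe mA).comap_apply,
      withDensity_apply _ hU]
    have e1 : Subtype.val '' ((fun z : A => S z) ⁻¹' U) = S.symm '' (U ∩ S '' A) := by
      ext x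
      simp only [mem_image, mem_preimage, Subtype.exists, exists_and_right, exists_eq_right,
        mem_inter_iff]
      constructor
      · rintro ⟨hx, hxU⟩
        exact ⟨S x, ⟨hxU, x, hx, rfl⟩, S.left_inv (hAS hx)⟩
      · rintro ⟨y, ⟨hyU, a, ha, rfl⟩, rfl⟩
        rw [S.left_inv (hAS ha)]
        exact ⟨ha, hyU⟩
    have mU : MeasurableSet (U ∩ S '' A) := hU.inter hK.measurableSet
    have hsub : U ∩ S '' A ⊆ S.target := by
      rintro y ⟨-, a, ha, rfl⟩
      exact S.map_source (hAS ha)
    have hder : ∀ y ∈ U ∩ S '' A, HasFDerivWithinAt S.symm (fderiv ℝ S.symm y) (U ∩ S '' A) y :=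
      fun y hy => ((hS'.contDiffAt (S.open_target.mem_nhds (hsub hy))).differentiableAt
        (by simp)).hasFDerivAt.hasFDerivWithinAt
    have hinj : InjOn S.symm (U ∩ S '' A) := S.symm.injOn.mono hsub
    have m1 : MeasurableSet (S.symm '' (U ∩ S '' A)) :=
      measurable_image_of_fderivWithin mU hder hinj
    rw [e1, withDensity_apply _ m1, lintegral_image_eq_lintegral_abs_det_fderiv_mul m mU hder hinj,
      ← lintegral_inter_add_sdiff _ U hK.measurableSet]
    have z1 : ∫⁻ x in U \ S '' A, ENNReal.ofReal (S.target.indicator g x ^ 2) ∂m = 0 := by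
      rw [setLIntegral_congr_fun (hU.diff hK.measurableSet) (g := fun _ => 0)]
      · simp
      · intro x hx
        simp [hzero x hx.2]
    rw [z1, add_zero]
    refine setLIntegral_congr_fun mU fun y hy => ?_
    simp only [indicator_of_mem (hsub hy), g]
    rw [mul_pow, Real.sq_sqrt (abs_nonneg _), ← ENNReal.ofReal_mul (abs_nonneg _), mul_comm]

end Crest.Agent.R130
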