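import Crest.Agent.R130.Local
import Crest.Prelude.Def_MultiMarginal

/-!
The seven small regions (one near the origin, six near unit vectors) and the dual inequalities.
-/

set_option autoImplicit false

open Set Filter Topology
open scoped ContDiff RealInnerProductSpace ENNReal
open Crest.AnalysisR.OT

namespace Crest.Agent.R130

section
variable {E : Type*} [NormedAddCommGroup E]

theorem pairCost_eq (s : ℝ) {x y : E} (h : x ≠ y) :
    pairCost s x y = ENNReal.ofReal (hh s (x - y)) := by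
  rw [pairCost, hh, ENNReal.ofReal_rpow_of_pos (norm_pos_iff.2 (sub_ne_zero.2 h))]

theorem hh_nonneg (s : ℝ) (x : E) : 0 ≤ hh s x := Real.rpow_nonneg (norm_nonneg _) _

theorem pairCost_comm (s : ℝ) (x y : E) : pairCost s x y = pairCost s y x := by
  rw [pairCost, pairCost, norm_sub_rev]

theorem le_pairCost {s : ℝ} (hs : 0 < s) {x y : E} {D : ℝ} (h : ‖x - y‖ ≤ D) :
    ENNReal.ofReal (D ^ (-s)) ≤ pairCost s x y := by
  by_cases hxy : x = y
  · simp [pairCost, hxy, ENNReal.zero_rpow_of_neg (neg_neg_of_pos hs)]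
  · rw [pairCost_eq s hxy]
    exact ENNReal.ofReal_le_ofReal
      (Real.rpow_le_rpow_of_nonpos (norm_pos_iff.2 (sub_ne_zero.2 hxy)) h (by linarith))

theorem tripleCost_eq (s : ℝ) {x y z : E} (h1 : x ≠ y) (h2 : x ≠ z) (h3 : y ≠ z) :
    tripleCost s (x, y, z) = ENNReal.ofReal (hh s (x - y) + hh s (x - z) + hh s (y - z)) := by
  rw [tripleCost, ENNReal.ofReal_add (add_nonneg (hh_nonneg _ _) (hh_nonneg _ _)) (hh_nonneg _ _),
    ENNReal.ofReal_add (hh_nonneg _ _) (hh_nonneg _ _), pairCost_eq s h1, pairCost_eq s h2,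
    pairCost_eq s h3]

theorem tripleCost_cyc (s : ℝ) (x y z : E) : tripleCost s (y, z, x) = tripleCost s (x, y, z) := by
  simp only [tripleCost, pairCost_comm s y x, pairCost_comm s z x]
  ring

theorem tripleCost_swap (s : ℝ) (x y z : E) : tripleCost s (x, z, y) = tripleCost s (x, y, z) := by
  simp only [tripleCost, pairCost_comm s z y]
  ring

end

variable {E : Type*} [NormedAddCommGroup E] [InnerProductSpace ℝ E]

theorem eventually_lt_cost {s : ℝ} (hs : 0 < s) {Y Y' : E → E} {f₀ f f' : E → ℝ}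
    (hY : ContinuousAt Y 0) (hY' : ContinuousAt Y' 0) (h1 : ‖Y 0‖ = 1) (h1' : ‖Y' 0‖ = 1)
    (hne : Y' 0 ≠ -Y 0) (h₀ : ContinuousAt f₀ 0) (hf : ContinuousAt f 0) (hf' : ContinuousAt f' 0)
    (hsum : f₀ 0 + f 0 + f' 0 = 2 + (2 : ℝ) ^ (-s)) :
    ∀ᶠ p : E × E × E in 𝓝 (0, 0, 0),
      ENNReal.ofReal (f₀ p.1 + f p.2.1 + f' p.2.2) < tripleCost s (p.1, Y p.2.1, Y' p.2.2) := by
  have hlt : ‖Y 0 - Y' 0‖ < 2 := by
    have h2 : ‖Y 0 + Y' 0‖ ≠ 0 := by
      rw [norm_ne_zero_iff]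
      intro h
      exact hne (eq_neg_of_add_eq_zero_right h)
    have h3 := parallelogram_law_with_norm ℝ (Y 0) (Y' 0)
    rw [h1, h1'] at h3
    have h4 : 0 < ‖Y 0 + Y' 0‖ := lt_of_le_of_ne (norm_nonneg _) h2.symm
    nlinarith [norm_nonneg (Y 0 - Y' 0)]
  set D := (‖Y 0 - Y' 0‖ + 2) / 2 with hD
  have hD0 : 0 < D := by positivity
  have hD1 : ‖Y 0 - Y' 0‖ < D := by linarith
  have hD2 : D < 2 := by linarith
  have hD3 : (2 : ℝ) ^ (-s) < D ^ (-s) := Real.rpow_lt_rpow_of_neg hD0 hD2 (by linarith)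
  have hY0 : Y 0 ≠ 0 := by
    intro h
    simp [h] at h1
  have hY0' : Y' 0 ≠ 0 := by
    intro h
    simp [h] at h1'
  have t1 : ContinuousAt (fun p : E × E × E => p.1) (0, 0, 0) := continuousAt_fst
  have t2 : ContinuousAt (fun p : E × E × E => p.2.1) (0, 0, 0) := by fun_prop
  have t3 : ContinuousAt (fun p : E × E × E => p.2.2) (0, 0, 0) := by fun_prop
  have cY : ContinuousAt (fun p : E × E × E => Y p.2.1) (0, 0, 0) :=
    ContinuousAt.comp (g := Y) (by simpa using hY) t2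
  have cY' : ContinuousAt (fun p : E × E × E => Y' p.2.2) (0, 0, 0) :=
    ContinuousAt.comp (g := Y') (by simpa using hY') t3
  have c1 : ContinuousAt (fun p : E × E × E => hh s (p.1 - Y p.2.1)) (0, 0, 0) :=
    ContinuousAt.comp (g := hh s) (continuousAt_hh s (by simpa using hY0)) (t1.sub cY)
  have c2 : ContinuousAt (fun p : E × E × E => hh s (p.1 - Y' p.2.2)) (0, 0, 0) :=
    ContinuousAt.comp (g := hh s) (continuousAt_hh s (by simpa using hY0')) (t1.sub cY')
  have c3 : ContinuousAt (fun p : E × E × E => f₀ p.1 + f p.2.1 + f' p.2.2) (0, 0, 0) :=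
    ((ContinuousAt.comp (g := f₀) (by simpa using h₀) t1).add
      (ContinuousAt.comp (g := f) (by simpa using hf) t2)).add
      (ContinuousAt.comp (g := f') (by simpa using hf') t3)
  have e1 : ∀ᶠ p : E × E × E in 𝓝 (0, 0, 0), f₀ p.1 + f p.2.1 + f' p.2.2 <
      hh s (p.1 - Y p.2.1) + hh s (p.1 - Y' p.2.2) + D ^ (-s) := by
    refine c3.eventually_lt ((c1.add c2).add continuousAt_const) ?_
    simp only [hsum, hh, zero_sub, norm_neg, h1, h1', Real.one_rpow]
    linarith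
  have e2 : ∀ᶠ p : E × E × E in 𝓝 (0, 0, 0), ‖Y p.2.1 - Y' p.2.2‖ < D :=
    (cY.sub cY').norm.eventually_lt continuousAt_const (by simpa using hD1)
  have e3 : ∀ᶠ p : E × E × E in 𝓝 (0, 0, 0), p.1 - Y p.2.1 ≠ 0 :=
    (t1.sub cY).eventually_ne (by simpa using hY0)
  have e4 : ∀ᶠ p : E × E × E in 𝓝 (0, 0, 0), p.1 - Y' p.2.2 ≠ 0 :=
    (t1.sub cY').eventually_ne (by simpa using hY0')
  filter_upwards [e1, e2, e3, e4] with p k1 k2 k3 k4
  have hpos : 0 < hh s (p.1 - Y p.2.1) + hh s (p.1 - Y' p.2.2) + D ^ (-s) := by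
    have := hh_nonneg s (p.1 - Y p.2.1)
    have := hh_nonneg s (p.1 - Y' p.2.2)
    positivity
  refine ((ENNReal.ofReal_lt_ofReal_iff hpos).2 k1).trans_le ?_
  rw [ENNReal.ofReal_add (add_nonneg (hh_nonneg _ _) (hh_nonneg _ _)) (by positivity),
    ENNReal.ofReal_add (hh_nonneg _ _) (hh_nonneg _ _), tripleCost]
  simp only
  rw [pairCost_eq s (sub_ne_zero.1 k3), pairCost_eq s (sub_ne_zero.1 k4)]
  gcongr
  exact le_pairCost hs k2.le

theorem geometry [FiniteDimensional ℝ E] {s : ℝ} (hs : 0 < s) (e : Fin 3 → E)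
    (he : ∀ i, ‖e i‖ = 1) (hne : ∀ i j, i ≠ j → e i ≠ e j ∧ e i ≠ -e j) :
    ∃ (r : ℝ) (T : Fin 3 ⊕ Fin 3 → OpenPartialHomeomorph E E) (f₀ : E → ℝ)
      (f : Fin 3 ⊕ Fin 3 → E → ℝ) (M : ℝ), 0 < r ∧
      (∀ l, Metric.closedBall 0 r ⊆ (T l).source ∧ ContDiffOn ℝ ∞ (T l) (T l).source ∧
        ContDiffOn ℝ ∞ (T l).symm (T l).target) ∧
      Continuous f₀ ∧ (∀ l, ContinuousOn (f l) (Metric.closedBall 0 r)) ∧
      ∀ x ∈ Metric.closedBall (0 : E) r, ∀ a ∈ Metric.closedBall (0 : E) r,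
        ∀ a' ∈ Metric.closedBall (0 : E) r,
        (∀ l, x ≠ T l a) ∧ (∀ l l', l ≠ l' → T l a ≠ T l' a') ∧
        (0 ≤ f₀ x ∧ f₀ x ≤ M) ∧ (∀ l, 0 ≤ f l a ∧ f l a ≤ M ∧ f l a ≤ (4 : ℝ) ^ (-s)) ∧
        ENNReal.ofReal (3 * M) < pairCost s x a ∧
        (∀ l l', ENNReal.ofReal ((4 : ℝ) ^ (-s)) ≤ pairCost s (T l a) (T l' a')) ∧
        (∀ l l', (∀ i, ¬ (l = Sum.inl i ∧ l' = Sum.inr i) ∧ ¬ (l = Sum.inr i ∧ l' = Sum.inl i)) →
          ENNReal.ofReal (f₀ x + f l a + f l' a') < tripleCost s (x, T l a, T l' a')) ∧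
        (∀ i, ENNReal.ofReal (f₀ x + f (Sum.inl i) a + f (Sum.inr i) a' + ‖x - a‖ ^ 2) ≤
          tripleCost s (x, T (Sum.inl i) a, T (Sum.inr i) a')) ∧
        (∀ i, tripleCost s (a, T (Sum.inl i) a, T (Sum.inr i) a) =
          ENNReal.ofReal (f₀ a + f (Sum.inl i) a + f (Sum.inr i) a)) := by
  obtain ⟨K, hK⟩ := (eventually_all.2 fun i => local_structure hs (he i)).exists
  choose q S R hS hR hG using hK
  set β : ℝ := (4 : ℝ) ^ (-s) / 2 with hβ
  set α : ℝ := 2 + (2 : ℝ) ^ (-s) - 2 * β with hα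
  have h4 : (4 : ℝ) ^ (-s) ≤ 1 := Real.rpow_le_one_of_one_le_of_nonpos (by norm_num) (by linarith)
  have h4' : 0 < (4 : ℝ) ^ (-s) := by positivity
  have h2' : 0 < (2 : ℝ) ^ (-s) := by positivity
  have hβ0 : 0 < β := by positivity
  have hα0 : 1 < α := by linarith
  let T : Fin 3 ⊕ Fin 3 → OpenPartialHomeomorph E E := Sum.elim S R
  let z : Fin 3 ⊕ Fin 3 → E := Sum.elim e fun i => -e i
  let f₀ : E → ℝ := fun x => α - K / 2 * ‖x‖ ^ 2
  let f : Fin 3 ⊕ Fin 3 → E → ℝ := Sum.elim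
    (fun i a => GG s K (e i) (q i) a (S i a) (R i a) - α - β)
    (fun i a => β + ⟪q i, R i a + e i⟫ - K / 2 * ‖R i a + e i‖ ^ 2)
  have he0 : ∀ i, e i ≠ 0 := fun i h => by simpa [h] using he i
  have hT : ∀ l, 0 ∈ (T l).source ∧ T l 0 = z l ∧ ContDiffOn ℝ ∞ (T l) (T l).source ∧
      ContDiffOn ℝ ∞ (T l).symm (T l).target := by
    rintro (i | i)
    exacts [hS i, hR i]
  have hz1 : ∀ l, ‖z l‖ = 1 := by
    rintro (i | i) <;> simp [z, he]
  have hz0 : ∀ l, z l ≠ 0 := fun l h => by simpa [h] using hz1 l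
  have hself : ∀ i, e i ≠ -e i := fun i h => by
    have : (2 : ℝ) • e i = 0 := by rw [two_smul]; exact add_eq_zero_iff_eq_neg.2 h
    exact he0 i ((smul_eq_zero.1 this).resolve_left (by norm_num))
  have hzinj : ∀ l l', l ≠ l' → z l ≠ z l' := by
    rintro (i | i) (j | j) h
    · exact (hne i j fun h' => h (by rw [h'])).1
    · by_cases hij : i = j
      · subst hij
        exact hself i
      · exact (hne i j hij).2
    · by_cases hij : j = i
      · subst hij
        exact (hself j).symm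
      · exact (hne j i hij).2.symm
    · exact fun h' => (hne i j fun h' => h (by rw [h'])).1 (neg_injective h')
  have hzanti : ∀ l l', (∀ i, ¬ (l = Sum.inl i ∧ l' = Sum.inr i) ∧
      ¬ (l = Sum.inr i ∧ l' = Sum.inl i)) → z l' ≠ -z l := by
    rintro (i | i) (j | j) h
    · exact hzinj (Sum.inl j) (Sum.inr i) (by simp)
    · exact hzinj (Sum.inr j) (Sum.inr i) fun h' => (h i).1 ⟨rfl, h'⟩
    · have := hzinj (Sum.inl j) (Sum.inl i) fun h' => (h i).2 ⟨rfl, h'⟩
      simpa [z] using this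
    · have := hzinj (Sum.inr j) (Sum.inl i) (by simp)
      simpa [z] using this
  have cT : ∀ l, ContinuousAt (T l) 0 := fun l => (T l).continuousAt (hT l).1
  have cf₀ : Continuous f₀ := by fun_prop
  have cfgen : ∀ l a, a ∈ (T l).source → (∀ i, a ∈ (S i).source ∧ a ∈ (R i).source ∧
      a ≠ S i a ∧ a ≠ R i a ∧ S i a ≠ R i a) → ContinuousAt (f l) a := by
    rintro (i | i) a - h
    · obtain ⟨h1, h2, h3, h4, h5⟩ := h i
      have c1 := (S i).continuousAt h1
      have c2 := (R i).continuousAt h2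
      have k1 : ContinuousAt (fun a => hh s (a - S i a)) a :=
        ContinuousAt.comp (g := hh s) (continuousAt_hh s (sub_ne_zero.2 h3))
          (continuousAt_id.sub c1)
      have k2 : ContinuousAt (fun a => hh s (a - R i a)) a :=
        ContinuousAt.comp (g := hh s) (continuousAt_hh s (sub_ne_zero.2 h4))
          (continuousAt_id.sub c2)
      have k3 : ContinuousAt (fun a => hh s (S i a - R i a)) a :=
        ContinuousAt.comp (g := hh s) (continuousAt_hh s (sub_ne_zero.2 h5)) (c1.sub c2)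
      simp only [f, Sum.elim_inl, GG]
      fun_prop
    · have c2 := (R i).continuousAt (h i).2.1
      simp only [f, Sum.elim_inr]
      fun_prop
  have cf : ∀ l, ContinuousAt (f l) 0 := fun l => cfgen l 0 (hT l).1 fun i =>
    ⟨(hS i).1, (hR i).1, by rw [(hS i).2.1]; exact (he0 i).symm,
      by rw [(hR i).2.1]; exact (neg_ne_zero.2 (he0 i)).symm,
      by rw [(hS i).2.1, (hR i).2.1]; exact hself i⟩
  have hf₀0 : f₀ 0 = α := by simp [f₀]
  have hf0 : ∀ l, f l 0 = β := by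
    rintro (i | i)
    · have : ‖e i + e i‖ = 2 := by rw [← two_smul ℝ, norm_smul, he]; simp
      simp only [f, Sum.elim_inl, GG, (hS i).2.1, (hR i).2.1, hh, zero_sub, norm_neg, he,
        sub_neg_eq_add, this, zero_add, neg_add_cancel, hα]
      simp
      ring
    · simp [f, (hR i).2.1]
  obtain ⟨D, hD0, hD⟩ : ∃ D : ℝ, 0 < D ∧ 3 * (α + 1) < D ^ (-s) := by
    have := (tendsto_rpow_neg_nhdsGT_zero (neg_neg_of_pos hs)).eventually
      (eventually_gt_atTop (3 * (α + 1)))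
    obtain ⟨D, h1, h2⟩ := (this.and self_mem_nhdsWithin).exists
    exact ⟨D, h2, h1⟩
  have t1 : ContinuousAt (fun p : E × E × E => p.1) (0, 0, 0) := continuousAt_fst
  have t2 : ContinuousAt (fun p : E × E × E => p.2.1) (0, 0, 0) := by fun_prop
  have t3 : ContinuousAt (fun p : E × E × E => p.2.2) (0, 0, 0) := by fun_prop
  have cY : ∀ l, ContinuousAt (fun p : E × E × E => T l p.2.1) (0, 0, 0) := fun l =>
    ContinuousAt.comp (g := T l) (by simpa using cT l) t2
  have cY' : ∀ l, ContinuousAt (fun p : E × E × E => T l p.2.2) (0, 0, 0) := fun l =>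
    ContinuousAt.comp (g := T l) (by simpa using cT l) t3
  have E0 : ∀ᶠ p : E × E × E in 𝓝 (0, 0, 0), ∀ l, p.2.1 ∈ (T l).source :=
    eventually_all.2 fun l => t2.preimage_mem_nhds ((T l).open_source.mem_nhds (hT l).1)
  have E1 : ∀ᶠ p : E × E × E in 𝓝 (0, 0, 0), ∀ l, p.1 ≠ T l p.2.1 :=
    eventually_all.2 fun l => by
      filter_upwards [(t1.sub (cY l)).eventually_ne (y := 0) (by simpa [(hT l).2.1] using hz0 l)]
        with p hp using sub_ne_zero.1 hp
  have E2 : ∀ᶠ p : E × E × E in 𝓝 (0, 0, 0), ∀ l l', l ≠ l' → T l p.2.1 ≠ T l' p.2.2 :=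
    eventually_all.2 fun l => eventually_all.2 fun l' => eventually_all.2 fun h => by
      filter_upwards [((cY l).sub (cY' l')).eventually_ne (y := 0)
        (by simpa [(hT l).2.1, (hT l').2.1, sub_eq_zero] using hzinj l l' h)]
        with p hp using sub_ne_zero.1 hp
  have E3 : ∀ᶠ p : E × E × E in 𝓝 (0, 0, 0), 0 ≤ f₀ p.1 ∧ f₀ p.1 ≤ α + 1 := by
    have c : ContinuousAt (fun p : E × E × E => f₀ p.1) (0, 0, 0) := by fun_prop
    filter_upwards [continuousAt_const.eventually_lt c (by simp only [hf₀0]; linarith : (0 : ℝ) < _),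
      c.eventually_lt continuousAt_const (by simp only [hf₀0]; linarith : _ < α + 1)]
      with p h1 h2 using ⟨h1.le, h2.le⟩
  have E4 : ∀ᶠ p : E × E × E in 𝓝 (0, 0, 0), ∀ l, 0 ≤ f l p.2.1 ∧ f l p.2.1 ≤ α + 1 ∧
      f l p.2.1 ≤ (4 : ℝ) ^ (-s) :=
    eventually_all.2 fun l => by
      have c : ContinuousAt (fun p : E × E × E => f l p.2.1) (0, 0, 0) :=
        ContinuousAt.comp (g := f l) (by simpa using cf l) t2
      filter_upwards [continuousAt_const.eventually_lt c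
          (by simp only [hf0]; linarith : (0 : ℝ) < _),
        c.eventually_lt continuousAt_const (by simp only [hf0]; linarith : _ < (4 : ℝ) ^ (-s))]
        with p h1 h2 using ⟨h1.le, by linarith, h2.le⟩
  have E5 : ∀ᶠ p : E × E × E in 𝓝 (0, 0, 0),
      ENNReal.ofReal (3 * (α + 1)) < pairCost s p.1 p.2.1 := by
    filter_upwards [(t1.sub t2).norm.eventually_lt continuousAt_const (by simpa using hD0 : _ < D)]
      with p hp
    exact ((ENNReal.ofReal_lt_ofReal_iff (by positivity)).2 hD).trans_le (le_pairCost hs hp.le)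
  have E6 : ∀ᶠ p : E × E × E in 𝓝 (0, 0, 0), ∀ l l',
      ENNReal.ofReal ((4 : ℝ) ^ (-s)) ≤ pairCost s (T l p.2.1) (T l' p.2.2) :=
    eventually_all.2 fun l => eventually_all.2 fun l' => by
      have : ‖z l - z l'‖ < 4 := by
        have := norm_sub_le (z l) (z l')
        rw [hz1, hz1] at this
        linarith
      filter_upwards [((cY l).sub (cY' l')).norm.eventually_lt continuousAt_const
        (by simpa [(hT l).2.1, (hT l').2.1] using this : _ < (4 : ℝ))] with p hp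
      exact le_pairCost hs hp.le
  have E7 : ∀ᶠ p : E × E × E in 𝓝 (0, 0, 0), ∀ l l',
      (∀ i, ¬ (l = Sum.inl i ∧ l' = Sum.inr i) ∧ ¬ (l = Sum.inr i ∧ l' = Sum.inl i)) →
      ENNReal.ofReal (f₀ p.1 + f l p.2.1 + f l' p.2.2) <
        tripleCost s (p.1, T l p.2.1, T l' p.2.2) :=
    eventually_all.2 fun l => eventually_all.2 fun l' => eventually_all.2 fun h =>
      eventually_lt_cost hs (cT l) (cT l') (by rw [(hT l).2.1, hz1]) (by rw [(hT l').2.1, hz1])
        (by rw [(hT l).2.1, (hT l').2.1]; exact hzanti l l' h) cf₀.continuousAt (cf l) (cf l')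
        (by rw [hf₀0, hf0, hf0, hα]; ring)
  have E8 := eventually_all.2 hG
  obtain ⟨r, hr, hall⟩ := Metric.nhds_basis_closedBall.eventually_iff.1
    (E0.and (E1.and (E2.and (E3.and (E4.and (E5.and (E6.and (E7.and E8))))))))
  have hall' : ∀ x ∈ Metric.closedBall (0 : E) r, ∀ a ∈ Metric.closedBall (0 : E) r,
      ∀ a' ∈ Metric.closedBall (0 : E) r, _ := fun x hx a ha a' ha' =>
    hall (show (x, a, a') ∈ Metric.closedBall ((0, 0, 0) : E × E × E) r by
      rw [← closedBall_prod_same, ← closedBall_prod_same]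
      exact ⟨hx, ha, ha'⟩)
  refine ⟨r, T, f₀, f, α + 1, hr, fun l => ⟨fun a ha => (hall' a ha a ha a ha).1 l,
    (hT l).2.2⟩, cf₀, ?_, ?_⟩
  · intro l a ha
    obtain ⟨k0, k1, k2, -⟩ := hall' a ha a ha a ha
    exact (cfgen l a (k0 l) fun i => ⟨k0 (Sum.inl i), k0 (Sum.inr i), k1 (Sum.inl i),
      k1 (Sum.inr i), k2 (Sum.inl i) (Sum.inr i) (by simp)⟩).continuousWithinAt
  · intro x hx a ha a' ha'
    obtain ⟨-, k1, k2, k3, k4, k5, k6, k7, k8⟩ := hall' x hx a ha a' ha'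
    refine ⟨k1, k2, k3, k4, k5, k6, k7, fun i => ?_, fun i => ?_⟩
    · rw [tripleCost_eq s (k1 _) ((hall' x hx a' ha' a' ha').2.1 _) (k2 _ _ (by simp))]
      refine ENNReal.ofReal_le_ofReal ?_
      have := k8 i
      simp only [f₀, f, T, Sum.elim_inl, Sum.elim_inr] at this ⊢
      rw [GG.eq_1 s K (e i) (q i) x] at this
      linarith
    · obtain ⟨-, j1, j2, -⟩ := hall' a ha a ha a ha
      rw [tripleCost_eq s (j1 _) (j1 _) (j2 _ _ (by simp))]
      congr 1
      simp only [f₀, f, T, Sum.elim_inl, Sum.elim_inr, GG]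
      ring

end Crest.Agent.R130
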