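import Mathlib

/-!
Local analysis near the configuration `(0, e, -e)`: strongly concave quadratic potentials for the
first and third particle give a contact set that is a graph over each variable.
-/

set_option autoImplicit false

open Set Filter Topology
open scoped ContDiff RealInnerProductSpace

namespace Crest.Agent.R130

theorem exists_local_diffeo {F : Type*} [NormedAddCommGroup F] [NormedSpace ℝ F]
    [FiniteDimensional ℝ F] (f : F → F) (x₀ : F) (hf : ContDiffAt ℝ ω f x₀) (f' : F →L[ℝ] F)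
    (hf' : HasFDerivAt f f' x₀) (hinj : ∀ v, f' v = 0 → v = 0) :
    ∃ S : OpenPartialHomeomorph F F, (S : F → F) = f ∧ x₀ ∈ S.source ∧
      ContDiffOn ℝ ∞ S S.source ∧ ContDiffOn ℝ ∞ S.symm S.target ∧
      ContDiffAt ℝ ω S.symm (f x₀) := by
  have : CompleteSpace F := FiniteDimensional.complete ℝ F
  have hi : Function.Injective (f' : F →ₗ[ℝ] F) :=
    (injective_iff_map_eq_zero _).2 hinj
  let L : F ≃L[ℝ] F := (LinearEquiv.ofInjectiveEndo (f' : F →ₗ[ℝ] F) hi).toContinuousLinearEquiv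
  have hL : (L : F →L[ℝ] F) = f' := by ext v; rfl
  have hfL : HasFDerivAt f (L : F →L[ℝ] F) x₀ := hL ▸ hf'
  let e := hf.toOpenPartialHomeomorph f hfL (by simp)
  have hsymm : ContDiffAt ℝ ω e.symm (f x₀) := hf.to_localInverse hfL (by simp)
  obtain ⟨U, hU, hUo, hxU⟩ := eventually_nhds_iff.1 (hf.eventually (by simp))
  obtain ⟨V, hV, hVo, hxV⟩ := eventually_nhds_iff.1 (hsymm.eventually (by simp))
  have hx₀ : x₀ ∈ e.source := hf.mem_toOpenPartialHomeomorph_source hfL (by simp)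
  refine ⟨((e.restrOpen U hUo).symm.restrOpen V hVo).symm, rfl, ?_, ?_, ?_, hsymm⟩
  · exact ⟨⟨hx₀, hxU⟩, hxV⟩
  · intro x hx
    exact ((hU x hx.1.2).of_le le_top).contDiffWithinAt
  · intro y hy
    exact ((hV y hy.2).of_le le_top).contDiffWithinAt

variable {E : Type*} [NormedAddCommGroup E] [InnerProductSpace ℝ E]

theorem hasFDerivAt_norm_rpow' (p : ℝ) {x : E} (hx : x ≠ 0) :
    HasFDerivAt (fun x : E => ‖x‖ ^ p) ((p * ‖x‖ ^ (p - 2)) • innerSL ℝ x) x := by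
  have hn : 0 < ‖x‖ := norm_pos_iff.2 hx
  have h1 : HasFDerivAt (fun x : E => ‖x‖ ^ 2) (2 • (innerSL ℝ x).comp (ContinuousLinearMap.id ℝ E))
      x := (hasFDerivAt_id x).norm_sq
  have h2 := h1.rpow_const (p := p / 2) (Or.inl (pow_pos hn 2).ne')
  have e : (fun x : E => ‖x‖ ^ p) = fun x : E => (‖x‖ ^ 2) ^ (p / 2) := by
    ext y
    rw [← Real.rpow_natCast, ← Real.rpow_mul (norm_nonneg _)]
    congr 1
    push_cast
    ring
  rw [e]
  convert h2 using 1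
  ext v
  have e2 : (‖x‖ ^ 2) ^ (p / 2 - 1) = ‖x‖ ^ (p - 2) := by
    rw [← Real.rpow_natCast, ← Real.rpow_mul (norm_nonneg _)]
    congr 1
    push_cast
    ring
  simp only [smul_apply, innerSL_apply_apply, smul_eq_mul,
    ContinuousLinearMap.comp_apply, ContinuousLinearMap.id_apply, e2, nsmul_eq_mul]
  push_cast
  ring

/-- The pair interaction. -/
noncomputable def hh (s : ℝ) (x : E) : ℝ := ‖x‖ ^ (-s)

/-- Its gradient. -/
noncomputable def gg (s : ℝ) (x : E) : E := (-s * ‖x‖ ^ (-s - 2)) • x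

omit [InnerProductSpace ℝ E] in
theorem hh_neg (s : ℝ) (x : E) : hh s (-x) = hh s x := by simp [hh]

theorem gg_neg (s : ℝ) (x : E) : gg s (-x) = -gg s x := by simp [gg]

theorem hasFDerivAt_hh (s : ℝ) {x : E} (hx : x ≠ 0) :
    HasFDerivAt (hh s) (innerSL ℝ (gg s x)) x := by
  have h : innerSL ℝ (gg s x) = (-s * ‖x‖ ^ (-s - 2)) • innerSL ℝ x := by
    rw [gg, map_smul]
  rw [h]
  exact hasFDerivAt_norm_rpow' (-s) hx

theorem contDiffAt_gg (s : ℝ) {x : E} (hx : x ≠ 0) : ContDiffAt ℝ ω (gg s) x :=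
  (contDiffAt_const.mul ((contDiffAt_norm ℝ hx).rpow_const_of_ne
    (norm_ne_zero_iff.2 hx))).smul contDiffAt_id

theorem continuousAt_hh (s : ℝ) {x : E} (hx : x ≠ 0) : ContinuousAt (hh s) x :=
  (hasFDerivAt_hh s hx).continuousAt

/-- The Hessian at a unit vector. -/
noncomputable def HH (s : ℝ) (e : E) : E →L[ℝ] E :=
  (-s) • ContinuousLinearMap.id ℝ E + (s * (s + 2)) • (innerSL ℝ e).smulRight e

theorem HH_apply (s : ℝ) (e v : E) : HH s e v = (-s) • v + (s * (s + 2) * ⟪e, v⟫) • e := by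
  simp [HH, smul_smul]

theorem hasFDerivAt_gg (s : ℝ) {e : E} (he : ‖e‖ = 1) {t : ℝ} (ht : t ≠ 0) :
    HasFDerivAt (gg s) (|t| ^ (-s - 2) • HH s e) (t • e) := by
  have he0 : e ≠ 0 := by
    rintro rfl
    simp at he
  have hx : t • e ≠ 0 := smul_ne_zero ht he0
  have hn : ‖t • e‖ = |t| := by simp [norm_smul, he]
  have hpos : 0 < |t| := abs_pos.2 ht
  have h1 := ((hasFDerivAt_norm_rpow' (-s - 2) hx).const_mul (-s)).smul (hasFDerivAt_id (t • e))
  refine HasFDerivAt.congr_fderiv h1 ?_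
  ext v
  symm
  have e1 : |t| ^ (-s - 2 - 2) * (t * t) = |t| ^ (-s - 2) := by
    rw [← abs_mul_abs_self t, Real.rpow_sub hpos (-s - 2) 2, Real.rpow_two]
    field_simp
  simp only [smul_apply, HH_apply, hn, add_apply,
    ContinuousLinearMap.id_apply, ContinuousLinearMap.smulRight_apply, innerSL_apply_apply,
    smul_eq_mul, id, inner_smul_left, smul_add, smul_smul, RCLike.conj_to_real]
  rw [← e1]
  congr 2
  · rw [e1]; ring
  · ring

theorem HH_inj {s : ℝ} (hs : 0 < s) {e : E} (he : ‖e‖ = 1) {v : E} (hv : HH s e v = 0) :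
    v = 0 := by
  have h1 : ⟪e, HH s e v⟫ = 0 := by rw [hv, inner_zero_right]
  rw [HH_apply, inner_add_right, inner_smul_right, inner_smul_right, real_inner_self_eq_norm_sq,
    he] at h1
  have h2 : s * (s + 1) * ⟪e, v⟫ = 0 := by linarith
  have h3 : ⟪e, v⟫ = 0 := by
    rcases mul_eq_zero.1 h2 with h | h
    · exact absurd h (by positivity)
    · exact h
  rw [HH_apply, h3] at hv
  simpa [hs.ne'] using hv

/-- Semiconvexity of the pair interaction near a nonzero point. -/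
theorem exists_semiconvex (s : ℝ) {x₀ : E} (hx₀ : x₀ ≠ 0) :
    ∃ M : ℝ, 0 ≤ M ∧ ∀ᶠ p : E × E in 𝓝 (x₀, x₀),
      -M * ‖p.2 - p.1‖ ^ 2 ≤ hh s p.2 - hh s p.1 - ⟪gg s p.1, p.2 - p.1⟫ := by
  obtain ⟨K, t, ht, hK⟩ :=
    ((contDiffAt_gg s hx₀).of_le (m := 1) le_top).exists_lipschitzOnWith
  obtain ⟨r, hr, hrt⟩ := Metric.mem_nhds_iff.1 (inter_mem ht (isOpen_ne.mem_nhds hx₀))
  refine ⟨K, K.2, ?_⟩
  have hb : Metric.ball x₀ r ∈ 𝓝 x₀ := Metric.ball_mem_nhds _ hr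
  filter_upwards [prod_mem_nhds hb hb] with p hp
  obtain ⟨hx, hy⟩ := hp
  set x := p.1
  set y := p.2
  have hconv : Convex ℝ (Metric.ball x₀ r ∩ Metric.closedBall x ‖y - x‖) :=
    (convex_ball _ _).inter (convex_closedBall _ _)
  have := hconv.norm_image_sub_le_of_norm_hasFDerivWithin_le' (f := hh s)
    (f' := fun z => innerSL ℝ (gg s z)) (φ := innerSL ℝ (gg s x)) (C := K * ‖y - x‖) (x := x)
    (y := y) (fun z hz => (hasFDerivAt_hh s (hrt hz.1).2).hasFDerivWithinAt) ?_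
    ⟨hx, by simp⟩ ⟨hy, by simp [dist_eq_norm]⟩
  · rw [Real.norm_eq_abs, abs_le] at this
    have h := this.1
    simp only [innerSL_apply_apply] at h
    nlinarith
  · intro z hz
    rw [← map_sub, innerSL_apply_norm]
    have h1 := hK.dist_le_mul z (hrt hz.1).1 x (hrt hx).1
    rw [dist_eq_norm] at h1
    refine h1.trans (mul_le_mul_of_nonneg_left hz.2 K.2)

/-- The cost minus the two quadratic potentials. -/
noncomputable def GG (s K : ℝ) (e q : E) (a b c : E) : ℝ :=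
  hh s (a - b) + hh s (a - c) + hh s (b - c) + K / 2 * ‖a‖ ^ 2 - ⟪q, c + e⟫ +
    K / 2 * ‖c + e‖ ^ 2

theorem local_structure [FiniteDimensional ℝ E] {s : ℝ} (hs : 0 < s) {e : E} (he : ‖e‖ = 1) :
    ∀ᶠ K : ℝ in atTop, ∃ (q : E) (S R : OpenPartialHomeomorph E E),
      (0 ∈ S.source ∧ S 0 = e ∧ ContDiffOn ℝ ∞ S S.source ∧ ContDiffOn ℝ ∞ S.symm S.target) ∧
      (0 ∈ R.source ∧ R 0 = -e ∧ ContDiffOn ℝ ∞ R R.source ∧ ContDiffOn ℝ ∞ R.symm R.target) ∧
      ∀ᶠ p : E × E × E in 𝓝 (0, 0, 0),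
        GG s K e q p.2.1 (S p.2.1) (R p.2.1) + ‖p.1 - p.2.1‖ ^ 2 ≤
          GG s K e q p.1 (S p.2.1) (R p.2.2) := by
  have he0 : e ≠ 0 := by
    rintro rfl
    simp at he
  have he1 : -e ≠ 0 := neg_ne_zero.2 he0
  have he2 : -e - e ≠ 0 := by
    rw [show -e - e = (-2 : ℝ) • e by module]
    exact smul_ne_zero (by norm_num) he0
  obtain ⟨M₁, hM₁, c₁⟩ := exists_semiconvex s he1
  obtain ⟨M₂, hM₂, c₂⟩ := exists_semiconvex s he0
  obtain ⟨M₃, hM₃, c₃⟩ := exists_semiconvex s he2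
  set lam : ℝ := (2 : ℝ) ^ (-s - 2) with hlam
  have hlam0 : 0 < lam := by positivity
  set H := HH s e with hH
  have d1 : HasFDerivAt (gg s) H e := by
    simpa using hasFDerivAt_gg s he (t := 1) one_ne_zero
  have d2 : HasFDerivAt (gg s) H (-e) := by
    simpa using hasFDerivAt_gg s he (t := -1) (by norm_num)
  have d3 : HasFDerivAt (gg s) (lam • H) (-e - e) := by
    have := hasFDerivAt_gg s he (t := -2) (by norm_num)
    rw [show -e - e = (-2 : ℝ) • e by module]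
    simpa using this
  filter_upwards [eventually_ge_atTop ((3 + 2 * lam + lam⁻¹) * ‖H‖ + 1),
    eventually_ge_atTop (2 * (M₁ + 2 * M₂ + M₃ + 1))] with K hK1 hK2
  set q : E := gg s (-e) + gg s (-e - e) with hq
  let Φ₁ : E × E × E → E := fun p => gg s (p.1 - p.2.1) + gg s (p.1 - p.2.2) + K • p.1
  let Φ₂ : E × E × E → E := fun p =>
    gg s (p.2.2 - p.1) + gg s (p.2.2 - p.2.1) - q + K • (p.2.2 + e)
  let Ψ : E × E × E → E × E × E := fun p => (p.1, Φ₁ p, Φ₂ p)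
  let p₀ : E × E × E := (0, e, -e)
  let π₁ : E × E × E →L[ℝ] E := ContinuousLinearMap.fst ℝ E (E × E)
  let π₂ : E × E × E →L[ℝ] E :=
    (ContinuousLinearMap.fst ℝ E E).comp (ContinuousLinearMap.snd ℝ E (E × E))
  let π₃ : E × E × E →L[ℝ] E :=
    (ContinuousLinearMap.snd ℝ E E).comp (ContinuousLinearMap.snd ℝ E (E × E))
  let D₁ : E × E × E →L[ℝ] E := H.comp (π₁ - π₂) + H.comp (π₁ - π₃) + K • π₁
  let D₂ : E × E × E →L[ℝ] E := H.comp (π₃ - π₁) + (lam • H).comp (π₃ - π₂) + K • π₃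
  have hD₁ : HasFDerivAt Φ₁ D₁ p₀ := by
    refine (HasFDerivAt.add ?_ ?_).add (π₁.hasFDerivAt.const_smul K)
    · exact HasFDerivAt.comp p₀ (g := gg s) (f := ⇑(π₁ - π₂)) (by simpa [π₁, π₂, p₀] using d2)
        (π₁ - π₂).hasFDerivAt
    · exact HasFDerivAt.comp p₀ (g := gg s) (f := ⇑(π₁ - π₃)) (by simpa [π₁, π₃, p₀] using d1)
        (π₁ - π₃).hasFDerivAt
  have hD₂ : HasFDerivAt Φ₂ D₂ p₀ := by
    refine ((HasFDerivAt.add ?_ ?_).sub_const q).add
      ((π₃.hasFDerivAt.add_const e).const_smul K)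
    · exact HasFDerivAt.comp p₀ (g := gg s) (f := ⇑(π₃ - π₁)) (by simpa [π₁, π₃, p₀] using d2)
        (π₃ - π₁).hasFDerivAt
    · exact HasFDerivAt.comp p₀ (g := gg s) (f := ⇑(π₃ - π₂)) (by simpa [π₂, π₃, p₀] using d3)
        (π₃ - π₂).hasFDerivAt
  have hΨ' : HasFDerivAt Ψ (π₁.prod (D₁.prod D₂)) p₀ :=
    π₁.hasFDerivAt.prodMk (hD₁.prodMk hD₂)
  have cg : ∀ (L : E × E × E →L[ℝ] E), L p₀ ≠ 0 → ContDiffAt ℝ ω (fun p => gg s (L p)) p₀ :=
    fun L hL => (contDiffAt_gg s hL).comp p₀ L.contDiff.contDiffAt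
  have hΨ : ContDiffAt ℝ ω Ψ p₀ := by
    refine contDiffAt_fst.prodMk (ContDiffAt.prodMk ?_ ?_)
    · exact ((cg (π₁ - π₂) (by simpa [π₁, π₂, p₀] using he0)).add
        (cg (π₁ - π₃) (by simpa [π₁, π₃, p₀] using he0))).add (contDiffAt_fst.const_smul K)
    · exact (((cg (π₃ - π₁) (by simpa [π₁, π₃, p₀] using he0)).add
        (cg (π₃ - π₂) (by simpa [π₂, π₃, p₀] using he2))).sub contDiffAt_const).add
        ((π₃.contDiff.contDiffAt.add contDiffAt_const).const_smul K)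
  have hΨ0 : Ψ p₀ = (0, 0, 0) := by
    simp [Ψ, Φ₁, Φ₂, p₀, hq, gg_neg]
  have D₁_apply : ∀ a b c : E, D₁ (a, b, c) = H (a - b) + H (a - c) + K • a := fun a b c => rfl
  have D₂_apply : ∀ a b c : E, D₂ (a, b, c) = H (c - a) + lam • H (c - b) + K • c :=
    fun a b c => rfl
  have hHn := norm_nonneg H
  have hli : 0 < lam⁻¹ := inv_pos.2 hlam0
  have small : ∀ (t : ℝ) (v : E), 0 ≤ t → t ≤ 3 + 2 * lam + lam⁻¹ → t • H v + K • v = 0 →
      v = 0 := by
    intro t v ht0 ht h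
    have h1 : K • v = -(t • H v) := eq_neg_of_add_eq_zero_right h
    have hK0 : 0 ≤ K := le_trans (by positivity) hK1
    have h2 : K * ‖v‖ = t * ‖H v‖ := by
      have := congrArg norm h1
      rwa [norm_neg, norm_smul, norm_smul, Real.norm_of_nonneg hK0, Real.norm_of_nonneg ht0] at this
    have h3 : t * ‖H v‖ ≤ (3 + 2 * lam + lam⁻¹) * (‖H‖ * ‖v‖) :=
      mul_le_mul ht (H.le_opNorm v) (norm_nonneg _) (by positivity)
    have h4 : ‖v‖ ≤ 0 := by nlinarith [norm_nonneg v]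
    exact norm_le_zero_iff.1 h4
  have kerA : ∀ b c : E, D₁ (0, b, c) = 0 → D₂ (0, b, c) = 0 → b = 0 ∧ c = 0 := by
    intro b c h1 h2
    rw [D₁_apply] at h1
    rw [D₂_apply] at h2
    have h3 : b = -c := by
      have : H (b + c) = 0 := by
        rw [← neg_eq_zero, ← h1]
        simp only [map_add, map_sub, map_zero, smul_zero]
        abel
      exact eq_neg_of_add_eq_zero_left (HH_inj hs he this)
    have h4 : c = 0 := by
      refine small (1 + 2 * lam) c (by positivity) (by linarith) ?_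
      rw [← h2, h3]
      simp only [map_sub, map_zero, map_neg]
      module
    simp [h3, h4]
  have kerB : ∀ a c : E, D₁ (a, 0, c) = 0 → D₂ (a, 0, c) = 0 → a = 0 := by
    intro a c h1 h2
    rw [D₁_apply] at h1
    rw [D₂_apply] at h2
    have hK0 : 0 ≤ K := le_trans (by positivity) hK1
    have e1 : K • a = H c - (2 : ℝ) • H a := by
      rw [← sub_eq_zero, ← h1]
      simp only [map_sub, map_zero]
      module
    have e2 : K • c = H a - (1 + lam) • H c := by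
      rw [← sub_eq_zero, ← h2]
      simp only [map_sub, map_zero]
      module
    have n1 : K * ‖a‖ ≤ ‖H c‖ + 2 * ‖H a‖ := by
      have := norm_sub_le (H c) ((2 : ℝ) • H a)
      rwa [← e1, norm_smul, norm_smul, Real.norm_of_nonneg hK0,
        Real.norm_of_nonneg (by norm_num)] at this
    have n2 : K * ‖c‖ ≤ ‖H a‖ + (1 + lam) * ‖H c‖ := by
      have := norm_sub_le (H a) ((1 + lam) • H c)
      rwa [← e2, norm_smul, norm_smul, Real.norm_of_nonneg hK0,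
        Real.norm_of_nonneg (by positivity)] at this
    have n3 := H.le_opNorm a
    have n4 := H.le_opNorm c
    have n5 : (2 + lam) * ‖H c‖ ≤ (2 + lam) * (‖H‖ * ‖c‖) :=
      mul_le_mul_of_nonneg_left n4 (by positivity)
    have ha := norm_nonneg a
    have hc := norm_nonneg c
    have n6 : ((3 + 2 * lam + lam⁻¹) * ‖H‖ + 1) * (‖a‖ + ‖c‖) ≤ K * (‖a‖ + ‖c‖) :=
      mul_le_mul_of_nonneg_right hK1 (by positivity)
    have n7 : 0 ≤ ‖H‖ * ‖a‖ := by positivity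
    have n8 : 0 ≤ ‖H‖ * ‖c‖ := by positivity
    have n9 : 0 ≤ lam * (‖H‖ * ‖a‖) := by positivity
    have n10 : 0 ≤ lam * (‖H‖ * ‖c‖) := by positivity
    have n11 : 0 ≤ lam⁻¹ * (‖H‖ * ‖a‖) := by positivity
    have n12 : 0 ≤ lam⁻¹ * (‖H‖ * ‖c‖) := by positivity
    have h4 : ‖a‖ ≤ 0 := by nlinarith
    exact norm_le_zero_iff.1 h4
  have kerC : ∀ a b : E, D₁ (a, b, 0) = 0 → D₂ (a, b, 0) = 0 → a = 0 := by
    intro a b h1 h2
    rw [D₁_apply] at h1
    rw [D₂_apply] at h2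
    have h3 : b = -(lam⁻¹ • a) := by
      have : H (a + lam • b) = 0 := by
        rw [← neg_eq_zero, ← h2]
        simp only [map_add, map_sub, map_zero, smul_zero, map_smul]
        module
      have h5 : a = -(lam • b) := eq_neg_of_add_eq_zero_left (HH_inj hs he this)
      rw [h5, smul_neg, smul_smul, inv_mul_cancel₀ hlam0.ne', one_smul, neg_neg]
    refine small (2 + lam⁻¹) a (by positivity) (by linarith) ?_
    rw [← h1, h3]
    simp only [map_sub, map_zero, map_neg, map_smul]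
    module
  obtain ⟨T, hT, hT0, -, -, hTs⟩ := exists_local_diffeo Ψ p₀ hΨ _ hΨ' (by
    rintro ⟨a, b, c⟩ h
    simp only [ContinuousLinearMap.prod_apply, Prod.mk_eq_zero] at h
    obtain ⟨h1, h2, h3⟩ := h
    have ha : a = 0 := h1
    subst ha
    obtain ⟨hb, hc⟩ := kerA b c h2 h3
    simp [hb, hc])
  rw [hΨ0] at hTs
  let Γ : E → E × E × E := fun a => T.symm (a, 0, 0)
  have hΓ : ContDiffAt ℝ ω Γ 0 :=
    ContDiffAt.comp (g := T.symm) (f := fun a : E => (a, (0 : E), (0 : E))) 0 hTs (by fun_prop)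
  have hΓ0 : Γ 0 = p₀ := by
    have := T.left_inv hT0
    rwa [hT, hΨ0] at this
  have hev : ∀ᶠ a in 𝓝 (0 : E), Ψ (Γ a) = (a, 0, 0) := by
    have h1 : T.target ∈ 𝓝 ((0, 0, 0) : E × E × E) := by
      refine T.open_target.mem_nhds ?_
      have := T.map_source hT0
      rwa [hT, hΨ0] at this
    have h2 : ContinuousAt (fun a : E => (a, (0 : E), (0 : E))) 0 := by fun_prop
    filter_upwards [h2.preimage_mem_nhds h1] with a ha
    rw [← hT]
    exact T.right_inv ha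
  have hΓd : HasFDerivAt Γ (fderiv ℝ Γ 0) 0 := (hΓ.differentiableAt (by simp)).hasFDerivAt
  have hder : ∀ v, (fderiv ℝ Γ 0 v).1 = v ∧ D₁ (fderiv ℝ Γ 0 v) = 0 ∧
      D₂ (fderiv ℝ Γ 0 v) = 0 := by
    intro v
    have h1 : HasFDerivAt (Ψ ∘ Γ) ((π₁.prod (D₁.prod D₂)).comp (fderiv ℝ Γ 0)) 0 :=
      HasFDerivAt.comp 0 (hΓ0 ▸ hΨ') hΓd
    have h2 : HasFDerivAt (Ψ ∘ Γ) (ContinuousLinearMap.inl ℝ E (E × E)) 0 :=
      (ContinuousLinearMap.inl ℝ E (E × E)).hasFDerivAt.congr_of_eventuallyEq hev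
    have h3 := congrArg (fun L => L v) (h1.unique h2)
    simp only [ContinuousLinearMap.comp_apply, ContinuousLinearMap.prod_apply,
      ContinuousLinearMap.inl_apply, Prod.ext_iff] at h3
    exact ⟨h3.1, h3.2.1, h3.2.2⟩
  obtain ⟨S, hS, hS0, hS1, hS2, -⟩ := exists_local_diffeo (fun a => (Γ a).2.1) 0
    (π₂.contDiff.contDiffAt.comp 0 hΓ) (π₂.comp (fderiv ℝ Γ 0))
    (π₂.hasFDerivAt.comp 0 hΓd) (by
      intro v hv
      obtain ⟨h1, h2, h3⟩ := hder v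
      have hv' : (fderiv ℝ Γ 0 v).2.1 = 0 := hv
      have : fderiv ℝ Γ 0 v = (v, 0, (fderiv ℝ Γ 0 v).2.2) := Prod.ext h1 (Prod.ext hv' rfl)
      rw [this] at h2 h3
      exact kerB _ _ h2 h3)
  obtain ⟨R, hR, hR0, hR1, hR2, -⟩ := exists_local_diffeo (fun a => (Γ a).2.2) 0
    (π₃.contDiff.contDiffAt.comp 0 hΓ) (π₃.comp (fderiv ℝ Γ 0))
    (π₃.hasFDerivAt.comp 0 hΓd) (by
      intro v hv
      obtain ⟨h1, h2, h3⟩ := hder v
      have hv' : (fderiv ℝ Γ 0 v).2.2 = 0 := hv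
      have : fderiv ℝ Γ 0 v = (v, (fderiv ℝ Γ 0 v).2.1, 0) := Prod.ext h1 (Prod.ext rfl hv')
      rw [this] at h2 h3
      exact kerC _ _ h2 h3)
  have hSe : S 0 = e := by rw [hS]; simp [hΓ0, p₀]
  have hRe : R 0 = -e := by rw [hR]; simp [hΓ0, p₀]
  refine ⟨q, S, R, ⟨hS0, hSe, hS1, hS2⟩, ⟨hR0, hRe, hR1, hR2⟩, ?_⟩
  have cS : ContinuousAt S 0 := S.continuousAt hS0
  have cR : ContinuousAt R 0 := R.continuousAt hR0
  have hcrit : ∀ᶠ a in 𝓝 (0 : E), gg s (a - S a) + gg s (a - R a) + K • a = 0 ∧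
      gg s (R a - a) + gg s (R a - S a) - q + K • (R a + e) = 0 := by
    filter_upwards [hev] with a ha
    simp only [Ψ, Prod.ext_iff] at ha
    obtain ⟨h1, h2, h3⟩ := ha
    simp only [Φ₁, Φ₂, h1] at h2 h3
    rw [hS, hR]
    exact ⟨h2, h3⟩
  have t1 : Tendsto (fun p : E × E × E => p.1) (𝓝 (0, 0, 0)) (𝓝 0) := continuousAt_fst
  have t2 : Tendsto (fun p : E × E × E => p.2.1) (𝓝 (0, 0, 0)) (𝓝 0) :=
    (by fun_prop : ContinuousAt (fun p : E × E × E => p.2.1) (0, 0, 0))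
  have t3 : Tendsto (fun p : E × E × E => p.2.2) (𝓝 (0, 0, 0)) (𝓝 0) :=
    (by fun_prop : ContinuousAt (fun p : E × E × E => p.2.2) (0, 0, 0))
  have tS : Tendsto (fun p : E × E × E => S p.2.1) (𝓝 (0, 0, 0)) (𝓝 e) :=
    hSe ▸ cS.tendsto.comp t2
  have tR : Tendsto (fun p : E × E × E => R p.2.1) (𝓝 (0, 0, 0)) (𝓝 (-e)) :=
    hRe ▸ cR.tendsto.comp t2
  have tR' : Tendsto (fun p : E × E × E => R p.2.2) (𝓝 (0, 0, 0)) (𝓝 (-e)) :=
    hRe ▸ cR.tendsto.comp t3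
  have u1 : Tendsto (fun p : E × E × E => (p.2.1 - S p.2.1, p.1 - S p.2.1)) (𝓝 (0, 0, 0))
      (𝓝 (-e, -e)) := by simpa using (t2.sub tS).prodMk_nhds (t1.sub tS)
  have u2 : Tendsto (fun p : E × E × E => (p.2.1 - R p.2.1, p.1 - R p.2.2)) (𝓝 (0, 0, 0))
      (𝓝 (e, e)) := by simpa using (t2.sub tR).prodMk_nhds (t1.sub tR')
  have u3 : Tendsto (fun p : E × E × E => (R p.2.1 - S p.2.1, R p.2.2 - S p.2.1)) (𝓝 (0, 0, 0))
      (𝓝 (-e - e, -e - e)) := (tR.sub tS).prodMk_nhds (tR'.sub tS)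
  filter_upwards [u1.eventually c₁, u2.eventually c₂, u3.eventually c₃, t2.eventually hcrit]
    with p k1 k2 k3 k4
  obtain ⟨x, a, a'⟩ := p
  simp only at k1 k2 k3 k4 ⊢
  set b := S a
  set c := R a
  set c' := R a'
  obtain ⟨k4, k5⟩ := k4
  set da := x - a with hda
  set dc := c' - c with hdc
  have r1 : x - b - (a - b) = da := by rw [hda]; abel
  have r2 : x - c' - (a - c) = da - dc := by rw [hda, hdc]; abel
  have r3 : c' - b - (c - b) = dc := by rw [hdc]; abel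
  rw [r1] at k1
  rw [r2] at k2
  rw [r3] at k3
  have i1 : ⟪gg s (a - b), da⟫ + ⟪gg s (a - c), da⟫ + K * ⟪a, da⟫ = 0 := by
    have := congrArg (fun v => ⟪v, da⟫) k4
    simpa [inner_add_left, inner_smul_left] using this
  have i2 : -⟪gg s (a - c), dc⟫ + ⟪gg s (c - b), dc⟫ - ⟪q, dc⟫ + K * ⟪c + e, dc⟫ = 0 := by
    have := congrArg (fun v => ⟪v, dc⟫) k5
    rw [← neg_sub a c, gg_neg] at this
    rwa [inner_add_left, inner_sub_left, inner_add_left, inner_neg_left, inner_zero_left,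
      real_inner_smul_left] at this
  have q1 : ‖x‖ ^ 2 = ‖a‖ ^ 2 + 2 * ⟪a, da⟫ + ‖da‖ ^ 2 := by
    rw [← norm_add_sq_real, hda]; simp
  have q2 : ‖c' + e‖ ^ 2 = ‖c + e‖ ^ 2 + 2 * ⟪c + e, dc⟫ + ‖dc‖ ^ 2 := by
    rw [← norm_add_sq_real, hdc]; congr 2; abel
  have q3 : ⟪q, c' + e⟫ = ⟪q, c + e⟫ + ⟪q, dc⟫ := by
    rw [← inner_add_right, hdc]; congr 1; abel
  have q4 : ‖da - dc‖ ^ 2 ≤ 2 * ‖da‖ ^ 2 + 2 * ‖dc‖ ^ 2 := by
    have h1 := norm_sub_le da dc
    have h2 : ‖da - dc‖ ^ 2 ≤ (‖da‖ + ‖dc‖) ^ 2 := by gcongr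
    nlinarith [sq_nonneg (‖da‖ - ‖dc‖)]
  have q5 : M₂ * ‖da - dc‖ ^ 2 ≤ M₂ * (2 * ‖da‖ ^ 2 + 2 * ‖dc‖ ^ 2) :=
    mul_le_mul_of_nonneg_left q4 hM₂
  have q6 : hh s (b - c) = hh s (c - b) := by rw [← neg_sub c b, hh_neg]
  have q7 : hh s (b - c') = hh s (c' - b) := by rw [← neg_sub c' b, hh_neg]
  rw [inner_sub_right] at k2
  have w1 : (M₁ + 2 * M₂ + M₃ + 1) * ‖da‖ ^ 2 ≤ K / 2 * ‖da‖ ^ 2 :=
    mul_le_mul_of_nonneg_right (by linarith) (sq_nonneg _)
  have w2 : (M₁ + 2 * M₂ + M₃ + 1) * ‖dc‖ ^ 2 ≤ K / 2 * ‖dc‖ ^ 2 :=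
    mul_le_mul_of_nonneg_right (by linarith) (sq_nonneg _)
  have w3 : 0 ≤ M₃ * ‖da‖ ^ 2 := by positivity
  have w4 : 0 ≤ M₁ * ‖dc‖ ^ 2 := by positivity
  have w5 : 0 ≤ ‖dc‖ ^ 2 := by positivity
  simp only [GG, q1, q2, q3, q6, q7]
  linarith

end Crest.Agent.R130
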