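import Crest.Agent.R130.Abstract
import Crest.Agent.R130.Density
import Crest.Agent.R130.Geometry

/-!
Assembly: the density, the potential and the verification of the abstract hypotheses.
-/

set_option autoImplicit false

open MeasureTheory Set Filter Topology
open scoped ContDiff RealInnerProductSpace ENNReal
open Crest.AnalysisR.OT

namespace Crest.Agent.R130

theorem prod_u3_map_apply {Z E : Type*} [MeasurableSpace Z] [MeasurableSpace E] (ν : Measure Z)
    [SFinite ν] (P : Z × Fin 3 → E) (hP : Measurable P) (U : Set E) (hU : MeasurableSet U) :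
    (ν.prod u3).map P U = ∑ i, ν.map (fun z => P (z, i)) U * (3 : ℝ≥0∞)⁻¹ := by
  rw [Measure.map_apply hP hU, Measure.prod_apply_symm (hP hU), lintegral_fintype]
  refine Finset.sum_congr rfl fun i _ => ?_
  rw [u3_singleton, Measure.map_apply (by fun_prop) hU]
  rfl

theorem measurable_tripleCost {E : Type*} [NormedAddCommGroup E] [SecondCountableTopology E]
    [MeasurableSpace E] [BorelSpace E] (s : ℝ) : Measurable (tripleCost (E := E) s) := by
  unfold tripleCost pairCost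
  fun_prop

theorem main {E : Type*} [NormedAddCommGroup E] [InnerProductSpace ℝ E] [FiniteDimensional ℝ E]
    [MeasureSpace E] [BorelSpace E] [(volume : Measure E).IsAddHaarMeasure]
    {s : ℝ} (hs : 0 < s) (e : Fin 3 → E)
    (he : ∀ i, ‖e i‖ = 1) (hne : ∀ i j, i ≠ j → e i ≠ e j ∧ e i ≠ -e j) :
    ∃ ρ : E → ℝ, (∀ x, 0 ≤ ρ x) ∧ ContDiff ℝ ∞ ρ ∧ HasCompactSupport ρ ∧
      ContDiff ℝ ∞ (fun x => Real.sqrt (ρ x)) ∧ ∫ x, ρ x = 1 ∧
      ∃ π₀ : Measure (E × E × E),
        IsCoupling₃ (measOfDensity ρ) π₀ ∧ ∫⁻ p, tripleCost s p ∂π₀ < ⊤ ∧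
        (∀ π : Measure (E × E × E), IsCoupling₃ (measOfDensity ρ) π →
          ∫⁻ p, tripleCost s p ∂π₀ ≤ ∫⁻ p, tripleCost s p ∂π) ∧
        (∀ T₂ T₃ : E → E, Measurable T₂ → Measurable T₃ →
          (measOfDensity ρ).map T₂ = measOfDensity ρ → (measOfDensity ρ).map T₃ = measOfDensity ρ →
          ∫⁻ p, tripleCost s p ∂π₀ < ∫⁻ x, tripleCost s (x, T₂ x, T₃ x) ∂(measOfDensity ρ)) ∧
        (∀ ε : ℝ≥0∞, 0 < ε → ∃ T₂ T₃ : E → E, Measurable T₂ ∧ Measurable T₃ ∧
          (measOfDensity ρ).map T₂ = measOfDensity ρ ∧ (measOfDensity ρ).map T₃ = measOfDensity ρ ∧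
          ∫⁻ x, tripleCost s (x, T₂ x, T₃ x) ∂(measOfDensity ρ) <
            ∫⁻ p, tripleCost s p ∂π₀ + ε) := by
  classical
  have : Nontrivial E := ⟨⟨e 0, e 1, (hne 0 1 (by decide)).1⟩⟩
  have : CompleteSpace E := FiniteDimensional.complete ℝ E
  obtain ⟨r, T, f₀, f, M, hr, hT, cf₀, cf, hall⟩ := geometry hs e he hne
  set A : Set E := Metric.closedBall 0 r with hA
  have hAc : IsCompact A := isCompact_closedBall 0 r
  have mA : MeasurableSet A := hAc.measurableSet
  have h0A : (0 : E) ∈ A := Metric.mem_closedBall_self hr.le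
  have : Nonempty A := ⟨⟨0, h0A⟩⟩
  have : CompactSpace A := isCompact_iff_compactSpace.1 hAc
  have : StandardBorelSpace A := mA.standardBorel
  -- the central bump
  let b : ContDiffBump (0 : E) := ⟨r / 2, r, by positivity, by linarith⟩
  have hb0 : ∀ x, x ∉ A → b x = 0 := fun x hx =>
    b.zero_of_le_dist (le_of_lt (by simpa [hA] using hx))
  have hbc : Continuous fun x => b x ^ 2 := b.continuous.pow 2
  have hbs : HasCompactSupport fun x => b x ^ 2 :=
    HasCompactSupport.intro hAc fun x hx => by simp [hb0 x hx]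
  have hI : 0 < ∫ x, b x ^ 2 :=
    hbc.integral_pos_of_hasCompactSupport_nonneg_nonzero (x := 0) hbs (fun x => sq_nonneg _)
      (by rw [b.one_of_mem_closedBall (Metric.mem_closedBall_self b.rIn_pos.le)]; simp)
  set k : ℝ := Real.sqrt (3 * ∫ x, b x ^ 2)⁻¹ with hk
  let ψ₀ : E → ℝ := fun x => k * b x
  have hψ₀ : ContDiff ℝ ∞ ψ₀ := contDiff_const.mul b.contDiff
  have hψ₀0 : ∀ x, 0 ≤ ψ₀ x := fun x => mul_nonneg (Real.sqrt_nonneg _) b.nonneg
  have hψ₀A : ∀ x, x ∉ A → ψ₀ x = 0 := fun x hx => by simp [ψ₀, hb0 x hx]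
  have hψ₀m : Measurable fun x => ENNReal.ofReal (ψ₀ x ^ 2) :=
    (hψ₀.continuous.pow 2).measurable.ennreal_ofReal
  set νE : Measure E := volume.withDensity fun x => ENNReal.ofReal (ψ₀ x ^ 2) with hνE
  have hνE1 : νE univ = (3 : ℝ≥0∞)⁻¹ := by
    have hint : Integrable fun x => ψ₀ x ^ 2 :=
      (hψ₀.continuous.pow 2).integrable_of_hasCompactSupport
        (HasCompactSupport.intro hAc fun x hx => by simp [hψ₀A x hx])
    rw [hνE, withDensity_apply _ MeasurableSet.univ, Measure.restrict_univ,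
      ← ofReal_integral_eq_lintegral_ofReal hint (Eventually.of_forall fun x => sq_nonneg _)]
    simp only [ψ₀, mul_pow]
    rw [integral_const_mul, hk, Real.sq_sqrt (by positivity)]
    have : (3 * ∫ x, b x ^ 2)⁻¹ * ∫ x, b x ^ 2 = 3⁻¹ := by field_simp
    rw [this, ENNReal.ofReal_inv_of_pos (by norm_num)]
    simp
  set ν : Measure A := νE.comap Subtype.val with hν
  have hνJ : ν.map Subtype.val = νE := by
    rw [hν, map_comap_subtype_coe mA]
    refine Measure.restrict_eq_self_of_ae_mem ?_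
    rw [hνE, ae_withDensity_iff hψ₀m]
    refine Eventually.of_forall fun x hx => ?_
    by_contra h
    simp [hψ₀A x h] at hx
  have hν1 : ν univ = (3 : ℝ≥0∞)⁻¹ := by
    rw [← hνE1, ← hνJ, Measure.map_apply measurable_subtype_coe MeasurableSet.univ, preimage_univ]
  have : IsFiniteMeasure ν := ⟨by rw [hν1]; simp⟩
  have hν0 : ν ≠ 0 := by
    intro h
    rw [h] at hν1
    simp only [Measure.coe_zero, Pi.zero_apply] at hν1
    exact absurd hν1.symm (by simp)
  -- the pushed densities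
  choose ψ hψ hψ0 hψA hψν using fun l => exists_push_density (volume : Measure E) (T l)
    (hT l).2.1 (hT l).2.2 A hAc (hT l).1 ψ₀ hψ₀ hψ₀0 hψ₀A
  have hψm : ∀ l, Measurable fun x => ENNReal.ofReal (ψ l x ^ 2) := fun l =>
    ((hψ l).continuous.pow 2).measurable.ennreal_ofReal
  let Ψ : E → ℝ := fun x => ψ₀ x + ∑ l, Real.sqrt 3⁻¹ * ψ l x
  have hΨ : ContDiff ℝ ∞ Ψ := hψ₀.add (ContDiff.sum fun l _ => contDiff_const.mul (hψ l))
  have hΨ0 : ∀ x, 0 ≤ Ψ x := fun x => add_nonneg (hψ₀0 x)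
    (Finset.sum_nonneg fun l _ => mul_nonneg (Real.sqrt_nonneg _) (hψ0 l x))
  have hΨsq : ∀ x, Ψ x ^ 2 = ψ₀ x ^ 2 + ∑ l, ψ l x ^ 2 * 3⁻¹ := by
    intro x
    by_cases h : ∃ l, x ∈ T l '' A
    · obtain ⟨l, a, ha, rfl⟩ := h
      have h1 : ψ₀ (T l a) = 0 := hψ₀A _ fun h => (hall _ h a ha a ha).1 l rfl
      have h2 : ∀ l', l' ≠ l → ψ l' (T l a) = 0 := fun l' hl => hψA l' _ (by
        rintro ⟨a', ha', h⟩
        exact (hall a ha a' ha' a ha).2.1 l' l hl h)
      simp only [Ψ, h1]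
      rw [Finset.sum_eq_single l (fun l' _ hl => by simp [h2 l' hl]) (by simp),
        Finset.sum_eq_single l (fun l' _ hl => by simp [h2 l' hl]) (by simp), zero_add, mul_pow,
        Real.sq_sqrt (by positivity)]
      ring
    · have h2 : ∀ l, ψ l x = 0 := fun l => hψA l x fun h' => h ⟨l, h'⟩
      simp [Ψ, h2]
  have cT : ∀ l, Continuous fun z : A => T l z := fun l =>
    continuousOn_iff_continuous_domRestrict.1 ((T l).continuousOn.mono (hT l).1)
  let P : A × Fin 3 → E := fun w => T (Sum.inl w.2) w.1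
  let Q : A × Fin 3 → E := fun w => T (Sum.inr w.2) w.1
  have cP : Continuous P := continuous_prod_of_discrete_right.2 fun i => cT (Sum.inl i)
  have cQ : Continuous Q := continuous_prod_of_discrete_right.2 fun i => cT (Sum.inr i)
  have hμ : measOfDensity (fun x => Ψ x ^ 2) =
      ν.map Subtype.val + (ν.prod u3).map P + (ν.prod u3).map Q := by
    ext U hU
    rw [Measure.add_apply, Measure.add_apply, prod_u3_map_apply ν P cP.measurable U hU,
      prod_u3_map_apply ν Q cQ.measurable U hU, hνJ, add_assoc,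
      ← Fintype.sum_sum_type (fun l => ν.map (fun z : A => T l z) U * (3 : ℝ≥0∞)⁻¹)]
    simp only [hν, hνE, hψν]
    simp only [measOfDensity, withDensity_apply _ hU]
    have e1 : ∀ x, ENNReal.ofReal (Ψ x ^ 2) = ENNReal.ofReal (ψ₀ x ^ 2) +
        ∑ l, ENNReal.ofReal (ψ l x ^ 2) * (3 : ℝ≥0∞)⁻¹ := by
      intro x
      rw [hΨsq, ENNReal.ofReal_add (sq_nonneg _) (Finset.sum_nonneg fun l _ => by positivity),
        ENNReal.ofReal_sum_of_nonneg (fun l _ => by positivity)]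
      congr 1
      refine Finset.sum_congr rfl fun l _ => ?_
      rw [ENNReal.ofReal_mul (sq_nonneg _), ENNReal.ofReal_inv_of_pos (by norm_num)]
      simp
    simp only [e1]
    rw [lintegral_add_left hψ₀m, lintegral_finsetSum _ (fun l _ => (hψm l).mul_const _)]
    congr 1
    exact Finset.sum_congr rfl fun l _ => lintegral_mul_const _ (hψm l)
  have hsupp : HasCompactSupport fun x => Ψ x ^ 2 := by
    refine HasCompactSupport.intro (hAc.union (isCompact_iUnion fun l =>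
      hAc.image_of_continuousOn ((T l).continuousOn.mono (hT l).1))) fun x hx => ?_
    simp only [mem_union, mem_iUnion, not_or, not_exists] at hx
    simp [Ψ, hψ₀A x hx.1, fun l => hψA l x (hx.2 l)]
  refine ⟨fun x => Ψ x ^ 2, fun x => sq_nonneg _, hΨ.pow 2, hsupp, ?_, ?_, ?_⟩
  · simpa only [Real.sqrt_sq (hΨ0 _)] using hΨ
  · rw [integral_eq_lintegral_of_nonneg_ae (Eventually.of_forall fun x => sq_nonneg _)
      (hΨ.continuous.pow 2).aestronglyMeasurable]
    have h1 := congrArg (fun m : Measure E => m univ) hμ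
    simp only [measOfDensity, withDensity_apply _ MeasurableSet.univ, Measure.restrict_univ,
      Measure.add_apply, Measure.map_apply measurable_subtype_coe MeasurableSet.univ,
      Measure.map_apply cP.measurable MeasurableSet.univ,
      Measure.map_apply cQ.measurable MeasurableSet.univ, preimage_univ] at h1
    rw [h1, ← univ_prod_univ, Measure.prod_prod, hν1, measure_univ, mul_one]
    have : (3 : ℝ≥0∞)⁻¹ + 3⁻¹ + 3⁻¹ = 1 := by
      rw [← ENNReal.mul_inv_cancel (a := 3) (by norm_num) (by norm_num)]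
      ring
    rw [this]
    simp
  -- injectivity and disjointness
  have iT : ∀ (l l' : Fin 3 ⊕ Fin 3) (a a' : A), T l a = T l' a' → l = l' ∧ a = a' := by
    intro l l' a a' h
    have h1 : l = l' := by
      by_contra h1
      exact (hall a a.2 a a.2 a' a'.2).2.1 l l' h1 h
    subst h1
    exact ⟨rfl, Subtype.ext ((T l).injOn ((hT l).1 a.2) ((hT l).1 a'.2) h)⟩
  have iP : Function.Injective P := fun w w' h =>
    Prod.ext (iT _ _ _ _ h).2 (Sum.inl_injective (iT _ _ _ _ h).1)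
  have iQ : Function.Injective Q := fun w w' h =>
    Prod.ext (iT _ _ _ _ h).2 (Sum.inr_injective (iT _ _ _ _ h).1)
  have dJ : ∀ (a : A) l (a' : A), (a : E) ≠ T l a' := fun a l a' =>
    (hall a a.2 a' a'.2 a' a'.2).1 l
  have dPQ : ∀ w w', P w ≠ Q w' := fun w w' h => absurd (iT _ _ _ _ h).1 (by simp)
  have cf' : ∀ l, Continuous fun z : A => f l z := fun l =>
    continuousOn_iff_continuous_domRestrict.1 (cf l)
  obtain ⟨φ, hφ, φJ, φP, φQ, φr⟩ := exists_glue (Subtype.val : A → E) P Q measurable_subtype_coe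
    cP.measurable cQ.measurable Subtype.val_injective iP iQ (fun a w => dJ a _ _)
    (fun a w => dJ a _ _) dPQ (fun a => ENNReal.ofReal (f₀ a))
    (fun w => ENNReal.ofReal (f (Sum.inl w.2) w.1)) (fun w => ENNReal.ofReal (f (Sum.inr w.2) w.1))
    (cf₀.comp continuous_subtype_val).measurable.ennreal_ofReal
    (continuous_prod_of_discrete_right.2 fun i => cf' (Sum.inl i)).measurable.ennreal_ofReal
    (continuous_prod_of_discrete_right.2 fun i => cf' (Sum.inr i)).measurable.ennreal_ofReal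
  have φT : ∀ l (a : A), φ (T l a) = ENNReal.ofReal (f l a) := by
    rintro (i | i) a
    exacts [φP (a, i), φQ (a, i)]
  have b₀ : ∀ a : A, 0 ≤ f₀ a ∧ f₀ a ≤ M := fun a => (hall a a.2 a a.2 a a.2).2.2.1
  have b₁ : ∀ l (a : A), 0 ≤ f l a ∧ f l a ≤ M ∧ f l a ≤ (4 : ℝ) ^ (-s) := fun l a =>
    (hall a a.2 a a.2 a a.2).2.2.2.1 l
  have hM0 : 0 ≤ M := (b₀ ⟨0, h0A⟩).1.trans (b₀ ⟨0, h0A⟩).2
  have hφM : ∀ x, φ x ≤ ENNReal.ofReal M := by
    intro x
    rcases φr x with ⟨a, h⟩ | ⟨w, h⟩ | ⟨w, h⟩ <;> rw [h] <;> apply ENNReal.ofReal_le_ofReal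
    exacts [(b₀ a).2, (b₁ _ _).2.1, (b₁ _ _).2.1]
  set X : Set E := range (Subtype.val : A → E) ∪ range P ∪ range Q with hX
  have hXc : ∀ x ∈ X, (∃ a : A, x = a) ∨ ∃ l, ∃ a : A, x = T l a := by
    rintro x ((⟨a, rfl⟩ | ⟨w, rfl⟩) | ⟨w, rfl⟩)
    exacts [Or.inl ⟨a, rfl⟩, Or.inr ⟨_, _, rfl⟩, Or.inr ⟨_, _, rfl⟩]
  have h3M : ∀ x y z, φ x + φ y + φ z ≤ ENNReal.ofReal (3 * M) := by
    intro x y z
    rw [show 3 * M = M + M + M by ring, ENNReal.ofReal_add (by positivity) hM0,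
      ENNReal.ofReal_add hM0 hM0]
    gcongr <;> exact hφM _
  have L1 : ∀ (a a' : A) (z : E), φ a + φ a' + φ z < tripleCost s ((a : E), (a' : E), z) := by
    intro a a' z
    refine (h3M _ _ _).trans_lt ((hall a a.2 a' a'.2 a' a'.2).2.2.2.2.1.trans_le ?_)
    rw [tripleCost, add_assoc]
    exact le_self_add
  have sum3 : ∀ (x : A) l (a : A) l' (a' : A), φ x + φ (T l a) + φ (T l' a') =
      ENNReal.ofReal (f₀ x + f l a + f l' a') := by
    intro x l a l' a'
    rw [φJ, φT, φT, ENNReal.ofReal_add (add_nonneg (b₀ x).1 (b₁ l a).1) (b₁ l' a').1,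
      ENNReal.ofReal_add (b₀ x).1 (b₁ l a).1]
  have L4 : ∀ (x a a' : A) i, φ x + φ (T (Sum.inl i) a) + φ (T (Sum.inr i) a') <
      tripleCost s ((x : E), T (Sum.inl i) a, T (Sum.inr i) a') ∨
      (x = a ∧ φ x + φ (T (Sum.inl i) a) + φ (T (Sum.inr i) a') ≤
      tripleCost s ((x : E), T (Sum.inl i) a, T (Sum.inr i) a')) := by
    intro x a a' i
    have h := (hall x x.2 a a.2 a' a'.2).2.2.2.2.2.2.2.1 i
    rw [sum3]
    by_cases hxa : x = a
    · refine Or.inr ⟨hxa, le_trans (ENNReal.ofReal_le_ofReal ?_) h⟩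
      linarith [sq_nonneg ‖(x : E) - a‖]
    · have h1 : 0 < ‖(x : E) - a‖ ^ 2 :=
        pow_pos (norm_pos_iff.2 (sub_ne_zero.2 fun h => hxa (Subtype.ext h))) 2
      refine Or.inl (lt_of_lt_of_le ((ENNReal.ofReal_lt_ofReal_iff ?_).2 ?_) h)
      · linarith [(b₀ x).1, (b₁ (Sum.inl i) a).1, (b₁ (Sum.inr i) a').1]
      · linarith
  have L5 : ∀ (x : A), ∀ y ∈ X, ∀ z ∈ X, φ x + φ y + φ z < tripleCost s ((x : E), y, z) ∨
      ((∃ i, y = P (x, i) ∨ z = P (x, i)) ∧ φ x + φ y + φ z ≤ tripleCost s ((x : E), y, z)) := by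
    intro x y hy z hz
    rcases hXc y hy with ⟨a, rfl⟩ | ⟨l, a, rfl⟩
    · exact Or.inl (L1 _ _ _)
    rcases hXc z hz with ⟨a', rfl⟩ | ⟨l', a', rfl⟩
    · left
      rw [tripleCost_swap, add_right_comm]
      exact L1 _ _ _
    by_cases h : ∀ i, ¬ (l = Sum.inl i ∧ l' = Sum.inr i) ∧ ¬ (l = Sum.inr i ∧ l' = Sum.inl i)
    · left
      rw [sum3]
      exact (hall x x.2 a a.2 a' a'.2).2.2.2.2.2.2.1 l l' h
    · simp only [not_forall, not_and_or (a := ¬ _), not_not] at h
      obtain ⟨i, ⟨rfl, rfl⟩ | ⟨rfl, rfl⟩⟩ := h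
      · rcases L4 x a a' i with h | ⟨rfl, h⟩
        · exact Or.inl h
        · exact Or.inr ⟨⟨i, Or.inl rfl⟩, h⟩
      · rw [tripleCost_swap, add_right_comm]
        rcases L4 x a' a i with h | ⟨rfl, h⟩
        · exact Or.inl h
        · exact Or.inr ⟨⟨i, Or.inr rfl⟩, h⟩
  have L6 : ∀ (x : A), ∀ y ∈ X, ∀ z ∈ X, φ x + φ y + φ z ≤ tripleCost s ((x : E), y, z) :=
    fun x y hy z hz => (L5 x y hy z hz).elim le_of_lt And.right
  refine abstract_main (tripleCost s) (measurable_tripleCost s) (tripleCost_cyc s) ν hν0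
    (fun z : A => ‖(z : E)‖) (by fun_prop) ?_ Subtype.val P Q measurable_subtype_coe
    cP.measurable cQ.measurable Subtype.val_injective iP iQ (fun a w => dJ a _ _)
    (fun a w => dJ a _ _) dPQ φ hφ (ENNReal.ofReal M) ENNReal.ofReal_ne_top hφM X hX ?_ ?_ ?_ ?_
    _ hμ
  · intro t
    have h1 : (fun z : A => ‖(z : E)‖) ⁻¹' {t} = Subtype.val ⁻¹' Metric.sphere (0 : E) t := by
      ext z
      simp
    rw [h1, ← Measure.map_apply measurable_subtype_coe Metric.isClosed_sphere.measurableSet, hνJ]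
    exact withDensity_absolutelyContinuous _ _ (Measure.addHaar_sphere volume 0 t)
  · intro x hx y hy z hz
    rcases hXc x hx with ⟨a, rfl⟩ | ⟨l, a, rfl⟩
    · exact L6 a y hy z hz
    rcases hXc y hy with ⟨a', rfl⟩ | ⟨l', a', rfl⟩
    · rw [← tripleCost_cyc, add_comm (φ _), add_right_comm]
      exact L6 a' z hz _ hx
    rcases hXc z hz with ⟨a'', rfl⟩ | ⟨l'', a'', rfl⟩
    · rw [tripleCost_cyc, add_comm, ← add_assoc]
      exact L6 a'' _ hx _ hy
    rw [tripleCost, φT, φT, φT]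
    have k : ∀ l (a : A) l₁ (a₁ : A) l₂ (a₂ : A),
        ENNReal.ofReal (f l a) ≤ pairCost s (T l₁ a₁) (T l₂ a₂) := fun l a l₁ a₁ l₂ a₂ =>
      (ENNReal.ofReal_le_ofReal (b₁ l a).2.2).trans
        ((hall a₁ a₁.2 a₁ a₁.2 a₂ a₂.2).2.2.2.2.2.1 l₁ l₂)
    exact add_le_add (add_le_add (k _ _ _ _ _ _) (k _ _ _ _ _ _)) (k _ _ _ _ _ _)
  · intro w
    rw [sum3]
    exact (hall w.1 w.1.2 w.1 w.1.2 w.1 w.1.2).2.2.2.2.2.2.2.2 w.2
  · intro a y hy z hz h
    rcases L5 a y hy z hz with h' | h'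
    · exact absurd h (not_le.2 h')
    · exact h'.1
  · intro ε hε
    let F : Fin 3 → A × A → ℝ := fun i p =>
      hh s ((p.1 : E) - P (p.2, i)) + hh s ((p.1 : E) - Q (p.2, i)) + hh s (P (p.2, i) - Q (p.2, i))
    have ch : ∀ g : A × A → E, Continuous g → (∀ p, g p ≠ 0) →
        Continuous fun p => hh s (g p) := fun g hg h0 =>
      continuous_iff_continuousAt.2 fun p =>
        ContinuousAt.comp (g := hh s) (continuousAt_hh s (h0 p)) hg.continuousAt
    have c1 : Continuous fun p : A × A => (p.1 : E) := by fun_prop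
    have c2 : ∀ l, Continuous fun p : A × A => T l p.2 := fun l => (cT l).comp continuous_snd
    have cF : ∀ i, Continuous (F i) := fun i =>
      ((ch _ (c1.sub (c2 (Sum.inl i))) fun p => sub_ne_zero.2 (dJ _ _ _)).add
        (ch _ (c1.sub (c2 (Sum.inr i))) fun p => sub_ne_zero.2 (dJ _ _ _))).add
        (ch _ ((c2 (Sum.inl i)).sub (c2 (Sum.inr i)))
          fun p => sub_ne_zero.2 (dPQ (p.2, i) (p.2, i)))
    obtain ⟨η, hη0, hηε⟩ : ∃ η : ℝ, 0 < η ∧ ENNReal.ofReal η ≤ ε := by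
      obtain ⟨η, -, h1, h2⟩ := ENNReal.lt_iff_exists_real_btwn.1 hε
      exact ⟨η, ENNReal.ofReal_pos.1 h1, h2.le⟩
    choose δ hδ hδF using fun i => Metric.uniformContinuous_iff_le.1
      (CompactSpace.uniformContinuous_of_continuous (cF i)) η hη0
    refine ⟨min (δ 0) (min (δ 1) (δ 2)), lt_min (hδ 0) (lt_min (hδ 1) (hδ 2)), fun a w h => ?_⟩
    obtain ⟨a', i⟩ := w
    have hi : dist a a' ≤ δ i := by
      refine h.trans ?_
      fin_cases i <;> simp
    have h1 := hδF i (a := (a, a')) (b := (a', a')) (by simpa [Prod.dist_eq, (hδ i).le] using hi)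
    rw [tripleCost_eq s (dJ _ _ _) (dJ _ _ _) (dPQ _ _),
      tripleCost_eq s (dJ _ _ _) (dJ _ _ _) (dPQ _ _)]
    change ENNReal.ofReal (F i (a, a')) ≤ ENNReal.ofReal (F i (a', a')) + ε
    rw [Real.dist_eq, abs_le] at h1
    calc ENNReal.ofReal (F i (a, a')) ≤ ENNReal.ofReal (F i (a', a') + η) :=
          ENNReal.ofReal_le_ofReal (by linarith [h1.2])
      _ ≤ ENNReal.ofReal (F i (a', a')) + ENNReal.ofReal η := ENNReal.ofReal_add_le
      _ ≤ _ := by gcongr

end Crest.Agent.R130
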