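import Mathlib

/-!
Measurable transport maps: a finite measure whose image under some real function has no atoms can be
pushed forward to any measure of the same mass on a standard Borel space; a local version on the
cells of a fine partition.
-/

set_option autoImplicit false

open MeasureTheory ProbabilityTheory Set Filter Topology
open scoped ENNReal unitInterval

namespace Crest.Agent.R130

/-- Probability integral transform, measure of the sublevel sets. -/
theorem measure_cdf_le (m : Measure ℝ) [IsProbabilityMeasure m] (hm : ∀ t, m {t} = 0)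
    (t : ℝ) (ht0 : 0 ≤ t) (ht1 : t ≤ 1) : m {x | cdf m x ≤ t} = ENNReal.ofReal t := by
  have : NullSingletonClass m := ⟨hm⟩
  rcases ht1.eq_or_lt with rfl | ht1
  · have : {x | cdf m x ≤ 1} = univ := eq_univ_of_forall fun x => cdf_le_one m x
    simp [this]
  set S : Set ℝ := {x | cdf m x ≤ t} with hS
  rcases S.eq_empty_or_nonempty with hE | hN
  · have : t ≤ 0 := by
      refine ge_of_tendsto' (tendsto_cdf_atBot m) fun x => ?_
      have : x ∉ S := by simp [hE]
      simp only [hS, mem_ofPred_eq, not_le] at this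
      exact this.le
    have : t = 0 := le_antisymm this ht0
    simp [hE, this]
  · have hB : BddAbove S := by
      obtain ⟨b, hb⟩ := eventually_atTop.1 ((tendsto_cdf_atTop m).eventually (lt_mem_nhds ht1))
      refine ⟨b, fun x hx => ?_⟩
      by_contra h
      exact absurd (hb x (not_le.1 h).le) (not_lt.2 hx)
    set x₀ := sSup S with hx₀
    have h1 : Iio x₀ ⊆ S := by
      intro x hx
      obtain ⟨y, hy, hxy⟩ := exists_lt_of_lt_csSup hN hx
      exact le_trans (monotone_cdf m hxy.le) hy
    have h2 : S ⊆ Iic x₀ := fun x hx => le_csSup hB hx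
    have h3 : t ≤ cdf m x₀ := by
      have hc : ContinuousWithinAt (cdf m) (Ioi x₀) x₀ :=
        ((cdf m).right_continuous x₀).mono Ioi_subset_Ici_self
      refine ge_of_tendsto hc.tendsto ?_
      filter_upwards [self_mem_nhdsWithin] with x hx
      by_contra h
      exact absurd (mem_Iic.1 (h2 (not_le.1 h).le)) (not_le.2 hx)
    have h4 : m (Iio x₀) ≤ ENNReal.ofReal t := by
      obtain ⟨u, hu, hux, hlim⟩ := exists_seq_strictMono_tendsto x₀
      have hU : Iio x₀ = ⋃ n, Iic (u n) := by
        ext x
        simp only [mem_Iio, mem_iUnion, mem_Iic]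
        constructor
        · intro hx
          obtain ⟨n, hn⟩ := (hlim.eventually (lt_mem_nhds hx)).exists
          exact ⟨n, hn.le⟩
        · rintro ⟨n, hn⟩
          exact hn.trans_lt (hux n)
      rw [hU, Monotone.measure_iUnion (fun a b hab => Iic_subset_Iic.2 (hu.monotone hab))]
      refine iSup_le fun n => ?_
      rw [← ofReal_cdf]
      exact ENNReal.ofReal_le_ofReal (h1 (hux n))
    have h5 : m (Iio x₀) = m (Iic x₀) := measure_congr Iio_ae_eq_Iic
    apply le_antisymm
    · exact (measure_mono h2).trans (h5 ▸ h4)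
    · refine le_trans ?_ (measure_mono h1)
      rw [h5, ← ofReal_cdf]
      exact ENNReal.ofReal_le_ofReal h3

theorem exists_map_eq_volume {X : Type*} [MeasurableSpace X] (ν : Measure X)
    [IsProbabilityMeasure ν] (l : X → ℝ) (hl : Measurable l) (h0 : ∀ t, ν (l ⁻¹' {t}) = 0) :
    ∃ f : X → I, Measurable f ∧ ν.map f = volume := by
  set m := ν.map l with hm
  have : IsProbabilityMeasure m := Measure.isProbabilityMeasure_map hl.aemeasurable
  have hm0 : ∀ t, m {t} = 0 := fun t => by
    rw [hm, Measure.map_apply hl (measurableSet_singleton t), h0]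
  have hcdf : Measurable (cdf m) := (monotone_cdf m).measurable
  let f : X → I := fun x => ⟨cdf m (l x), cdf_nonneg m _, cdf_le_one m _⟩
  have hf : Measurable f := (hcdf.comp hl).subtype_mk
  refine ⟨f, hf, ?_⟩
  have : IsProbabilityMeasure (ν.map f) := Measure.isProbabilityMeasure_map hf.aemeasurable
  refine Measure.ext_of_Iic _ _ fun t => ?_
  rw [Measure.map_apply hf measurableSet_Iic, unitInterval.volume_Iic,
    ← measure_cdf_le m hm0 t t.2.1 t.2.2, hm,
    Measure.map_apply hl (measurableSet_le hcdf measurable_const)]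
  rfl

/-- Transport of a measure without atoms (seen through `l`) onto any measure of the same mass. -/
theorem exists_map_eq {X Y : Type*} [MeasurableSpace X] [MeasurableSpace Y] [StandardBorelSpace Y]
    [Nonempty Y] (ν : Measure X) [IsFiniteMeasure ν] (κ : Measure Y)
    (hmass : ν univ = κ univ)
    (l : X → ℝ) (hl : Measurable l) (h0 : ∀ t, ν (l ⁻¹' {t}) = 0) :
    ∃ f : X → Y, Measurable f ∧ ν.map f = κ := by
  by_cases hz : ν univ = 0
  · have h1 : ν = 0 := Measure.measure_univ_eq_zero.1 hz
    have h2 : κ = 0 := Measure.measure_univ_eq_zero.1 (hmass ▸ hz)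
    exact ⟨fun _ => Classical.arbitrary Y, measurable_const, by simp [h1, h2]⟩
  have htop : ν univ ≠ ⊤ := measure_ne_top _ _
  have : IsProbabilityMeasure ((ν univ)⁻¹ • ν) :=
    ⟨by simp [ENNReal.inv_mul_cancel hz htop]⟩
  have : IsProbabilityMeasure ((ν univ)⁻¹ • κ) :=
    ⟨by simp [← hmass, ENNReal.inv_mul_cancel hz htop]⟩
  obtain ⟨f, hf, hfν⟩ := exists_map_eq_volume ((ν univ)⁻¹ • ν) l hl (fun t => by simp [h0 t])
  obtain ⟨g, hg, hgκ⟩ := Measure.exists_measurable_map_eq ((ν univ)⁻¹ • κ)
  refine ⟨g ∘ f, hg.comp hf, ?_⟩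
  have h : ((ν univ)⁻¹ • ν).map (g ∘ f) = (ν univ)⁻¹ • κ := by
    rw [← Measure.map_map hg hf, hfν, hgκ]
  rw [Measure.map_smul] at h
  have h' := congrArg (fun m => (ν univ) • m) h
  simpa [smul_smul, ENNReal.mul_inv_cancel hz htop] using h'

/-- A measure preserving map onto `ν ⊗ u` that moves points by at most `δ`. -/
theorem exists_local_map {Z Y : Type*} [PseudoMetricSpace Z] [TopologicalSpace.SeparableSpace Z]
    [MeasurableSpace Z] [OpensMeasurableSpace Z] [StandardBorelSpace Z] [Nonempty Z]
    [MeasurableSpace Y] [StandardBorelSpace Y] [Nonempty Y]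
    (ν : Measure Z) [IsFiniteMeasure ν] (u : Measure Y) [IsProbabilityMeasure u]
    (l : Z → ℝ) (hl : Measurable l) (h0 : ∀ t, ν (l ⁻¹' {t}) = 0) (δ : ℝ) (hδ : 0 < δ) :
    ∃ τ : Z → Z × Y, Measurable τ ∧ ν.map τ = ν.prod u ∧ ∀ᵐ z ∂ν, dist z (τ z).1 ≤ δ := by
  classical
  obtain ⟨As, hAm, hAb, hAd, hAU, hAdisj⟩ :=
    SeparableSpace.exists_measurable_partition_diam_le Z hδ
  have key : ∀ n, ∃ f : Z → Z × Y, Measurable f ∧
      (ν.restrict (As n)).map f = (ν.restrict (As n)).prod u := fun n =>
    exists_map_eq (ν.restrict (As n)) _ (by simp [← univ_prod_univ, Measure.prod_prod]) l hl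
      (fun t => le_antisymm ((Measure.restrict_apply_le _ _).trans (h0 t).le) (zero_le))
  choose f hf hfν using key
  have hex : ∀ z, ∃ n, z ∈ As n := fun z => by
    have : z ∈ ⋃ n, As n := hAU ▸ mem_univ z
    exact mem_iUnion.1 this
  let τ : Z → Z × Y := fun z => f (Nat.find (hex z)) z
  have hτ : Measurable τ := Measurable.find (p := fun n z => z ∈ As n) hf hAm hex
  have hτn : ∀ n, ∀ z ∈ As n, τ z = f n z := by
    intro n z hz
    have : Nat.find (hex z) = n := by
      by_contra h
      exact Set.disjoint_left.1 (hAdisj h) (Nat.find_spec (hex z)) hz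
    simp only [τ, this]
  have hsum : ν = Measure.sum fun n => ν.restrict (As n) := by
    rw [← Measure.restrict_iUnion hAdisj hAm, hAU, Measure.restrict_univ]
  have hmap : ∀ n, (ν.restrict (As n)).map τ = (ν.restrict (As n)).prod u := fun n => by
    rw [← hfν n]
    exact Measure.map_congr ((ae_restrict_iff' (hAm n)).2 (Eventually.of_forall (hτn n)))
  refine ⟨τ, hτ, ?_, ?_⟩
  · conv_lhs => rw [hsum]
    conv_rhs => rw [hsum]
    rw [Measure.map_sum hτ.aemeasurable, Measure.prod_sum_left]
    simp only [hmap]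
  · rw [hsum, Measure.ae_sum_iff]
    intro n
    have h1 : ∀ᵐ z ∂(ν.restrict (As n)), (τ z).1 ∈ As n := by
      have h2 : ∀ᵐ p ∂((ν.restrict (As n)).map τ), p.1 ∈ As n := by
        rw [hmap n, Measure.restrict_prod_eq_prod_univ]
        filter_upwards [ae_restrict_mem ((hAm n).prod MeasurableSet.univ)] with p hp
        exact hp.1
      exact ae_of_ae_map hτ.aemeasurable h2
    filter_upwards [h1, ae_restrict_mem (hAm n)] with z hz1 hz2
    exact (Metric.dist_le_diam_of_mem (hAb n) hz2 hz1).trans (hAd n)

end Crest.Agent.R130
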